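import Vale.Agent.P097.H593.T3d

/-! P097, row (T3): the statement over `ℂ × ℂ`, `x : ℝ × ℝ`, in the shape of 91 / 185. -/

namespace Vale.Agent.P097.H593

open MeasureTheory Metric Set Filter Topology Complex Real

/-- imaginary part of a point of `ℂ × ℂ`. -/
def im2 (z : ℂ × ℂ) : ℝ × ℝ := (z.1.im, z.2.im)

/-- real part of a point of `ℂ × ℂ`. -/
def re2 (z : ℂ × ℂ) : ℝ × ℝ := (z.1.re, z.2.re)

/-- the embedding `ℝ × ℝ → ℂ × ℂ`. -/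
noncomputable def iota : (ℝ × ℝ) →L[ℝ] (ℂ × ℂ) := Complex.ofRealCLM.prodMap Complex.ofRealCLM

theorem iota_apply (x : ℝ × ℝ) : iota x = ((x.1 : ℂ), (x.2 : ℂ)) := rfl

/-- `J z = ∫ log ‖S (z + x)‖ φ x dx`. -/
noncomputable def JJ (S : ℂ × ℂ → ℂ) (φ : ℝ × ℝ → ℝ) (z : ℂ × ℂ) : ℝ :=
  ∫ x : ℝ × ℝ, Real.log ‖S (z.1 + x.1, z.2 + x.2)‖ * φ x

/-- `J_c z = ∫ log (max ‖S (z + x)‖ c) φ x dx`. -/
noncomputable def JN (S : ℂ × ℂ → ℂ) (φ : ℝ × ℝ → ℝ) (c : ℝ) (z : ℂ × ℂ) : ℝ :=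
  ∫ x : ℝ × ℝ, Real.log (max ‖S (z.1 + x.1, z.2 + x.2)‖ c) * φ x

theorem pt_re_im (z : ℂ × ℂ) : pt iota (re2 z) (im2 z) = z := by
  unfold pt re2 im2
  rw [iota_apply, iota_apply]
  refine Prod.ext ?_ ?_
  · simp only [Prod.fst_add, Prod.smul_fst, smul_eq_mul]
    rw [mul_comm]; exact re_add_im z.1
  · simp only [Prod.snd_add, Prod.smul_snd, smul_eq_mul]
    rw [mul_comm]; exact re_add_im z.2

theorem pt_add (x y : ℝ × ℝ) (u : ℝ × ℝ) :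
    pt iota (x + u) y = ((pt iota x y).1 + u.1, (pt iota x y).2 + u.2) := by
  unfold pt
  rw [map_add, iota_apply, iota_apply, iota_apply]
  refine Prod.ext ?_ ?_
  · simp only [Prod.fst_add, Prod.smul_fst, smul_eq_mul]; ring
  · simp only [Prod.snd_add, Prod.smul_snd, smul_eq_mul]; ring

theorem im2_pt (x y : ℝ × ℝ) : im2 (pt iota x y) = y := by
  unfold pt im2
  rw [iota_apply, iota_apply]
  refine Prod.ext ?_ ?_ <;> simp

theorem re2_pt (x y : ℝ × ℝ) : re2 (pt iota x y) = x := by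
  unfold pt re2
  rw [iota_apply, iota_apply]
  refine Prod.ext ?_ ?_ <;> simp

theorem JN_eq (S : ℂ × ℂ → ℂ) (φ : ℝ × ℝ → ℝ) (c : ℝ) (x y : ℝ × ℝ) :
    Jc iota S φ volume c x y = JN S φ c (pt iota x y) := by
  unfold Jc JN lg
  simp_rw [pt_add]

theorem JJ_eq (S : ℂ × ℂ → ℂ) (φ : ℝ × ℝ → ℝ) (x y : ℝ × ℝ) :
    J0 iota S φ volume x y = JJ S φ (pt iota x y) := by
  unfold J0 JJ
  simp_rw [pt_add]

theorem norm_pt_le (x y : ℝ × ℝ) : ‖pt iota x y‖ ≤ ‖x‖ + ‖y‖ := by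
  unfold pt
  refine (norm_add_le _ _).trans (add_le_add ?_ ?_)
  · rw [iota_apply, Prod.norm_def, Prod.norm_def]
    simp
  · rw [iota_apply, norm_smul, Complex.norm_I, one_mul, Prod.norm_def, Prod.norm_def]
    simp

theorem norm_im2_le (z : ℂ × ℂ) : ‖im2 z‖ ≤ ‖z‖ := by
  unfold im2
  rw [Prod.norm_def, Prod.norm_def]
  exact max_le_max (abs_im_le_norm _) (abs_im_le_norm _)

theorem norm_re2_le (z : ℂ × ℂ) : ‖re2 z‖ ≤ ‖z‖ := by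
  unfold re2
  rw [Prod.norm_def, Prod.norm_def]
  exact max_le_max (abs_re_le_norm _) (abs_re_le_norm _)

theorem im2_continuous : Continuous im2 := by
  unfold im2
  exact (Complex.continuous_im.comp continuous_fst).prodMk
    (Complex.continuous_im.comp continuous_snd)

/-- **(T3)** over `ℂ × ℂ`. `K1 ⊆ K2` open cones, `K2` closed under addition, `S` holomorphic over
`K2`, without zeros over `K1`. If the upper limit of `∫ log ‖S (z + x)‖ φ x dx` for `z → 0` over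
compact subcones of `K1` is at most `L`, then the same holds over compact subcones of `K2` for the
truncated averages. -/
theorem T3 {S : ℂ × ℂ → ℂ} {φ : ℝ × ℝ → ℝ} {K1 K2 : Set (ℝ × ℝ)}
    (hK1o : IsOpen K1) (hK1s : ∀ y ∈ K1, ∀ r : ℝ, 0 < r → r • y ∈ K1) (hK1n : K1.Nonempty)
    (hK2o : IsOpen K2) (hK2s : ∀ y ∈ K2, ∀ r : ℝ, 0 < r → r • y ∈ K2)
    (hK2a : ∀ y ∈ K2, ∀ y' ∈ K2, y + y' ∈ K2) (hK12 : K1 ⊆ K2)
    (hS : DifferentiableOn ℂ S {z | im2 z ∈ K2})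
    (hS1 : ∀ z, im2 z ∈ K1 → S z ≠ 0)
    (hφ : Continuous φ) (hφc : HasCompactSupport φ) (hφ0 : ∀ u, 0 ≤ φ u)
    {L : ℝ}
    (hL : ∀ Q : Set (ℝ × ℝ), IsCompact Q → Q ⊆ K1 → ∀ ε > 0, ∃ δ > 0, ∀ z : ℂ × ℂ, ‖z‖ < δ →
      (∃ r : ℝ, 0 < r ∧ ∃ y ∈ Q, im2 z = r • y) → JJ S φ z ≤ L + ε)
    {Q : Set (ℝ × ℝ)} (hQ : IsCompact Q) (hQK : Q ⊆ K2) (hQ0 : (0 : ℝ × ℝ) ∉ Q) {ε : ℝ}
    (hε : 0 < ε) :
    ∃ δ > 0, ∀ z : ℂ × ℂ, ‖z‖ < δ → (∃ r : ℝ, 0 < r ∧ ∃ y ∈ Q, im2 z = r • y) →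
      ∃ c0 > 0, ∀ c, 0 < c → c ≤ c0 → JN S φ c z ≤ L + ε := by
  have hL' : ∀ Q : Set (ℝ × ℝ), IsCompact Q → Q ⊆ K1 → ∀ ε > 0, ∃ δ > 0, ∀ x, ‖x‖ < δ →
      ∀ r : ℝ, 0 < r → r < δ → ∀ y ∈ Q, J0 iota S φ volume x (r • y) ≤ L + ε := by
    intro Q hQ hQK ε hε
    obtain ⟨δ, hδ, h⟩ := hL Q hQ hQK ε hε
    obtain ⟨B, hB⟩ := hQ.isBounded.exists_norm_le
    refine ⟨δ / (2 * (|B| + 1)), by positivity, ?_⟩
    intro x hx r hr hrδ y hy
    rw [JJ_eq]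
    refine h _ ?_ ⟨r, hr, y, hy, im2_pt _ _⟩
    refine (norm_pt_le _ _).trans_lt ?_
    rw [norm_smul, Real.norm_eq_abs, abs_of_pos hr]
    rw [lt_div_iff₀ (by positivity)] at hx hrδ
    have h1 : ‖y‖ ≤ |B| := (hB y hy).trans (le_abs_self B)
    have h2 : r * ‖y‖ ≤ r * |B| := mul_le_mul_of_nonneg_left h1 hr.le
    have h3 : 0 ≤ ‖x‖ * |B| := by positivity
    nlinarith
  obtain ⟨δ, hδ, h⟩ := limsup_cone (ι := iota) (S := S) (φ := φ) (μ := volume)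
    (Ω := {z | im2 z ∈ K2}) hK1o hK1s hK1n hK2o hK2s hK2a hK12
    (hK2o.preimage im2_continuous) (fun x y hy => by
      show im2 (pt iota x y) ∈ K2
      rw [im2_pt]; exact hy) hS
    (fun x y hy => hS1 _ (by rw [im2_pt]; exact hy)) hφ hφc hφ0 hL' hQ hQK hε
  -- lower bound of the norm on `Q`
  obtain ⟨q0, hq0, hq⟩ := hQ.exists_forall_le' (f := fun y => ‖y‖) (a := 0)
    continuous_norm.continuousOn
    (fun y hy => norm_pos_iff.2 (fun h0 => hQ0 (h0 ▸ hy)))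
  refine ⟨min δ (δ * q0), by positivity, ?_⟩
  rintro z hz ⟨r, hr, y, hy, hzy⟩
  have hz1 : ‖z‖ < δ := lt_of_lt_of_le hz (min_le_left _ _)
  have hz2 : ‖z‖ < δ * q0 := lt_of_lt_of_le hz (min_le_right _ _)
  have hrδ : r < δ := by
    have h1 : r * ‖y‖ ≤ ‖z‖ := by
      have := norm_im2_le z
      rw [hzy, norm_smul, Real.norm_eq_abs, abs_of_pos hr] at this
      exact this
    have h2 : r * q0 ≤ r * ‖y‖ := mul_le_mul_of_nonneg_left (hq y hy) hr.le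
    have h3 : r * q0 < δ * q0 := by linarith
    exact lt_of_mul_lt_mul_right h3 hq0.le
  obtain ⟨c0, hc0, hc⟩ := h (re2 z) ((norm_re2_le z).trans_lt hz1) r hr hrδ y hy
  refine ⟨c0, hc0, ?_⟩
  intro c hc1 hc2
  have := hc c hc1 hc2
  rw [JN_eq, ← hzy, pt_re_im] at this
  exact this

/-- the version with `J` itself, whenever `S (z + ·)` has almost no zeros. -/
theorem JJ_le_JN {S : ℂ × ℂ → ℂ} {φ : ℝ × ℝ → ℝ} {K2 : Set (ℝ × ℝ)}
    (hS : DifferentiableOn ℂ S {z | im2 z ∈ K2})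
    (hφ : Continuous φ) (hφc : HasCompactSupport φ) (hφ0 : ∀ u, 0 ≤ φ u)
    {c : ℝ} (hc : 0 < c) {z : ℂ × ℂ} (hz : im2 z ∈ K2)
    (hae : ∀ᵐ x : ℝ × ℝ, S (z.1 + x.1, z.2 + x.2) ≠ 0)
    (hint : Integrable (fun x : ℝ × ℝ => Real.log ‖S (z.1 + x.1, z.2 + x.2)‖ * φ x)) :
    JJ S φ z ≤ JN S φ c z := by
  unfold JJ JN
  refine integral_mono_ae hint ?_ ?_
  · refine Continuous.integrable_of_hasCompactSupport ?_ (hφc.mul_left)
    refine Continuous.mul ?_ hφ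
    have h1 : Continuous (fun x : ℝ × ℝ => ((z.1 + x.1, z.2 + x.2) : ℂ × ℂ)) := by fun_prop
    have h2 : Continuous (fun x : ℝ × ℝ => S (z.1 + x.1, z.2 + x.2)) := by
      refine hS.continuousOn.comp_continuous h1 (fun x => ?_)
      show im2 _ ∈ K2
      have : im2 (z.1 + (x.1 : ℂ), z.2 + (x.2 : ℂ)) = im2 z := by
        unfold im2; simp
      rw [this]; exact hz
    exact (lg_continuous hc).comp h2
  · filter_upwards [hae] with x hx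
    exact mul_le_mul_of_nonneg_right (log_le_lg hx) (hφ0 x)

end Vale.Agent.P097.H593
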