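import Vale.Agent.P097.H593.T3h
import Vale.Agent.P097.H593.T3
import Vale.Agent.P097.TC.Defs

/-! P097, row (T3), rapidly decreasing weight, over `ℂ × ℂ`, and in the notation of `TC/Defs`. -/

namespace Vale.Agent.P097.H593

open MeasureTheory Metric Set Filter Topology Complex Real

/-- upper growth over compacts of heights (first growth clause of `Tlem`). -/
def UpC (S : ℂ × ℂ → ℂ) (K : Set (ℝ × ℝ)) : Prop :=
  ∀ Y : Set (ℝ × ℝ), IsCompact Y → Y ⊆ K → ∃ (C : ℝ) (n : ℕ), ∀ z : ℂ × ℂ, im2 z ∈ Y →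
    Real.log ‖S z‖ ≤ C * (1 + ‖re2 z‖) ^ n

/-- lower growth over compacts of heights (second growth clause of `Tlem`). -/
def LoC (S : ℂ × ℂ → ℂ) (K : Set (ℝ × ℝ)) : Prop :=
  ∀ Y : Set (ℝ × ℝ), IsCompact Y → Y ⊆ K → ∃ (C : ℝ) (n : ℕ), ∀ z : ℂ × ℂ, im2 z ∈ Y →
    -Real.log ‖S z‖ ≤ C * (1 + ‖re2 z‖) ^ n

theorem UpC.up {S : ℂ × ℂ → ℂ} {K : Set (ℝ × ℝ)} (h : UpC S K) : Up iota S K := by
  intro Y hY hYK
  obtain ⟨C, n, hC⟩ := h Y hY hYK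
  refine ⟨C, n, fun x y hy => ?_⟩
  have := hC (pt iota x y) (by rw [im2_pt]; exact hy)
  rwa [re2_pt] at this

theorem LoC.lo {S : ℂ × ℂ → ℂ} {K : Set (ℝ × ℝ)} (h : LoC S K) : Lo iota S K := by
  intro Y hY hYK
  obtain ⟨C, n, hC⟩ := h Y hY hYK
  refine ⟨C, n, fun x y hy => ?_⟩
  have := hC (pt iota x y) (by rw [im2_pt]; exact hy)
  rwa [re2_pt] at this

/-- **(T3G)** over `ℂ × ℂ`. -/
theorem T3G {S : ℂ × ℂ → ℂ} {φ : ℝ × ℝ → ℝ} {K1 K2 : Set (ℝ × ℝ)}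
    (hK1o : IsOpen K1) (hK1s : ∀ y ∈ K1, ∀ r : ℝ, 0 < r → r • y ∈ K1) (hK1n : K1.Nonempty)
    (hK2o : IsOpen K2) (hK2s : ∀ y ∈ K2, ∀ r : ℝ, 0 < r → r • y ∈ K2)
    (hK2a : ∀ y ∈ K2, ∀ y' ∈ K2, y + y' ∈ K2) (hK12 : K1 ⊆ K2)
    (hS : DifferentiableOn ℂ S {z | im2 z ∈ K2})
    (hS1 : ∀ z, im2 z ∈ K1 → S z ≠ 0)
    (hφ : Wt φ volume) (hup : UpC S K2) (hlo : LoC S K1)
    {L : ℝ}
    (hL : ∀ Q : Set (ℝ × ℝ), IsCompact Q → Q ⊆ K1 → ∀ ε > 0, ∃ δ > 0, ∀ z : ℂ × ℂ, ‖z‖ < δ →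
      (∃ r : ℝ, 0 < r ∧ ∃ y ∈ Q, im2 z = r • y) → JJ S φ z ≤ L + ε)
    {Q : Set (ℝ × ℝ)} (hQ : IsCompact Q) (hQK : Q ⊆ K2) (hQ0 : (0 : ℝ × ℝ) ∉ Q) {ε : ℝ}
    (hε : 0 < ε) :
    ∃ δ > 0, ∀ z : ℂ × ℂ, ‖z‖ < δ → (∃ r : ℝ, 0 < r ∧ ∃ y ∈ Q, im2 z = r • y) →
      ∃ c0 > 0, ∀ c, 0 < c → c ≤ c0 → JN S φ c z ≤ L + ε := by
  have hL' : ∀ Q : Set (ℝ × ℝ), IsCompact Q → Q ⊆ K1 → ∀ ε > 0, ∃ δ > 0, ∀ x, ‖x‖ < δ →
      ∀ r : ℝ, 0 < r → r < δ → ∀ y ∈ Q, J0 iota S φ volume x (r • y) ≤ L + ε := by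
    intro Q hQ hQK ε hε
    obtain ⟨δ, hδ, h⟩ := hL Q hQ hQK ε hε
    obtain ⟨B, hB⟩ := hQ.isBounded.exists_norm_le
    refine ⟨δ / (2 * (|B| + 1)), by positivity, ?_⟩
    intro x hx r hr hrδ y hy
    rw [JJ_eq]
    refine h _ ?_ ⟨r, hr, y, hy, im2_pt _ _⟩
    refine (norm_pt_le _ _).trans_lt ?_
    rw [norm_smul, Real.norm_eq_abs, abs_of_pos hr]
    rw [lt_div_iff₀ (by positivity)] at hx hrδ
    have h1 : ‖y‖ ≤ |B| := (hB y hy).trans (le_abs_self B)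
    have h2 : r * ‖y‖ ≤ r * |B| := mul_le_mul_of_nonneg_left h1 hr.le
    have h3 : 0 ≤ ‖x‖ * |B| := by positivity
    nlinarith
  obtain ⟨δ, hδ, h⟩ := limsup_coneG (ι := iota) (S := S) (φ := φ) (μ := volume)
    (Ω := {z | im2 z ∈ K2}) hK1o hK1s hK1n hK2o hK2s hK2a hK12
    (hK2o.preimage im2_continuous) (fun x y hy => by
      show im2 (pt iota x y) ∈ K2
      rw [im2_pt]; exact hy) hS
    (fun x y hy => hS1 _ (by rw [im2_pt]; exact hy)) hφ hup.up hlo.lo hL' hQ hQK hε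
  obtain ⟨q0, hq0, hq⟩ := hQ.exists_forall_le' (f := fun y => ‖y‖) (a := 0)
    continuous_norm.continuousOn
    (fun y hy => norm_pos_iff.2 (fun h0 => hQ0 (h0 ▸ hy)))
  refine ⟨min δ (δ * q0), by positivity, ?_⟩
  rintro z hz ⟨r, hr, y, hy, hzy⟩
  have hz1 : ‖z‖ < δ := lt_of_lt_of_le hz (min_le_left _ _)
  have hz2 : ‖z‖ < δ * q0 := lt_of_lt_of_le hz (min_le_right _ _)
  have hrδ : r < δ := by
    have h1 : r * ‖y‖ ≤ ‖z‖ := by
      have := norm_im2_le z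
      rw [hzy, norm_smul, Real.norm_eq_abs, abs_of_pos hr] at this
      exact this
    have h2 : r * q0 ≤ r * ‖y‖ := mul_le_mul_of_nonneg_left (hq y hy) hr.le
    have h3 : r * q0 < δ * q0 := by linarith
    exact lt_of_mul_lt_mul_right h3 hq0.le
  obtain ⟨c0, hc0, hc⟩ := h (re2 z) ((norm_re2_le z).trans_lt hz1) r hr hrδ y hy
  refine ⟨c0, hc0, ?_⟩
  intro c hc1 hc2
  have := hc c hc1 hc2
  rw [JN_eq, ← hzy, pt_re_im] at this
  exact this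

/-- uniform convergence of the truncated averages over compacts of `K1` (Dini with a rate). -/
theorem JN_unif {S : ℂ × ℂ → ℂ} {φ : ℝ × ℝ → ℝ} {K1 K2 : Set (ℝ × ℝ)} (hK12 : K1 ⊆ K2)
    (hS : DifferentiableOn ℂ S {z | im2 z ∈ K2})
    (hS1 : ∀ z, im2 z ∈ K1 → S z ≠ 0)
    (hφ : Wt φ volume) (hup : UpC S K2) (hlo : LoC S K1)
    {Y : Set (ℝ × ℝ)} (hY : IsCompact Y) (hYK : Y ⊆ K1) (R : ℝ) {ε : ℝ} (hε : 0 < ε) :
    ∃ c0 > 0, c0 ≤ 1 ∧ ∀ c, 0 < c → c ≤ c0 → ∀ z : ℂ × ℂ, ‖re2 z‖ ≤ R → im2 z ∈ Y →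
      JJ S φ z ≤ JN S φ c z ∧ JN S φ c z ≤ JJ S φ z + ε := by
  obtain ⟨c0, hc0, hc01, h⟩ := trunc_unif (ι := iota) (S := S) (φ := φ) (μ := volume)
    (Ω := {z | im2 z ∈ K2}) hφ hK12 (fun x y hy => by
      show im2 (pt iota x y) ∈ K2
      rw [im2_pt]; exact hy) hS
    (fun x y hy => hS1 _ (by rw [im2_pt]; exact hy)) hup.up hlo.lo hY hYK R hε
  refine ⟨c0, hc0, hc01, fun c hc hcc z hz hzY => ?_⟩
  have := h c hc hcc (re2 z) hz (im2 z) hzY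
  rwa [JN_eq, JJ_eq, pt_re_im] at this

/-- the sub-mean value property of the truncated averages over an analytic disc in `ℂ × ℂ`. -/
theorem JN_disc {S : ℂ × ℂ → ℂ} {φ : ℝ × ℝ → ℝ} {K2 : Set (ℝ × ℝ)} (hK2o : IsOpen K2)
    (hS : DifferentiableOn ℂ S {z | im2 z ∈ K2})
    (hφ : Wt φ volume) (hup : UpC S K2) {c : ℝ} (hc : 0 < c) (hc1 : c ≤ 1)
    {f : ℂ → ℂ × ℂ} (hf : AnalyticOnNhd ℂ f (closedBall 0 1))
    (hfK : ∀ w ∈ closedBall (0:ℂ) 1, im2 (f w) ∈ K2) :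
    CircleIntegrable (fun w => JN S φ c (f w)) 0 1 ∧
    JN S φ c (f 0) ≤ circleAverage (fun w => JN S φ c (f w)) 0 1 := by
  have hfc : ContinuousOn f (closedBall 0 1) := hf.continuousOn
  have hre : Continuous re2 := by unfold re2; fun_prop
  have heq : (fun w => pt iota (re2 (f w)) (im2 (f w))) = f := by
    funext w; exact pt_re_im _
  have h := Jc_discG (ι := iota) (S := S) (φ := φ) (μ := volume) (K := K2)
    (Ω := {z | im2 z ∈ K2}) hc hc1 hφ (hK2o.preimage im2_continuous) (fun x y hy => by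
      show im2 (pt iota x y) ∈ K2
      rw [im2_pt]; exact hy) hS hup.up (X := fun w => re2 (f w)) (Y := fun w => im2 (f w))
    (hre.comp_continuousOn hfc) (im2_continuous.comp_continuousOn hfc) hfK
    (by rw [heq]; exact hf)
  simp_rw [JN_eq, pt_re_im] at h
  exact h

/-- the Gaussian weight of 127 is admissible. -/
theorem wt_gauss : Wt (fun x : ℝ × ℝ => Real.exp (-(x.1 ^ 2 + x.2 ^ 2))) volume := by
  refine ⟨by fun_prop, fun u => (Real.exp_pos _).le, fun n => ?_⟩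
  have hg : Integrable (fun x : ℝ × ℝ => (n.factorial * Real.exp (3 / 2)) *
      (Real.exp (-(1 / 2) * x.1 ^ 2) * Real.exp (-(1 / 2) * x.2 ^ 2))) volume := by
    have h1 : Integrable (fun t : ℝ => Real.exp (-(1 / 2) * t ^ 2)) volume :=
      integrable_exp_neg_mul_sq (by norm_num)
    exact (h1.mul_prod h1).const_mul _
  refine Integrable.mono' hg ?_ (Eventually.of_forall fun u => ?_)
  · exact (Continuous.mul (by fun_prop) (by fun_prop)).aestronglyMeasurable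
  · rw [norm_mul, Real.norm_eq_abs, Real.norm_eq_abs, Real.abs_exp,
      abs_of_nonneg (by positivity : (0:ℝ) ≤ (1 + ‖u‖) ^ n)]
    have h1 : (1 + ‖u‖) ^ n ≤ n.factorial * Real.exp (1 + ‖u‖) := by
      have := Real.pow_div_factorial_le_exp (1 + ‖u‖) (by positivity) n
      rw [div_le_iff₀ (by positivity)] at this
      linarith
    have h2 : ‖u‖ ^ 2 ≤ u.1 ^ 2 + u.2 ^ 2 := by
      rw [Prod.norm_def]
      rcases max_cases ‖u.1‖ ‖u.2‖ with ⟨h, -⟩ | ⟨h, -⟩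
      · rw [h, Real.norm_eq_abs, sq_abs]; nlinarith [sq_nonneg u.2]
      · rw [h, Real.norm_eq_abs, sq_abs]; nlinarith [sq_nonneg u.1]
    have h3 : Real.exp (1 + ‖u‖) ≤ Real.exp (3 / 2) * Real.exp ((u.1 ^ 2 + u.2 ^ 2) / 2) := by
      rw [← Real.exp_add]
      refine Real.exp_le_exp.2 ?_
      nlinarith [sq_nonneg (‖u‖ - 1)]
    calc (1 + ‖u‖) ^ n * Real.exp (-(u.1 ^ 2 + u.2 ^ 2))
        ≤ (n.factorial * (Real.exp (3 / 2) * Real.exp ((u.1 ^ 2 + u.2 ^ 2) / 2)))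
            * Real.exp (-(u.1 ^ 2 + u.2 ^ 2)) := by
          refine mul_le_mul_of_nonneg_right (h1.trans ?_) (Real.exp_pos _).le
          exact mul_le_mul_of_nonneg_left h3 (by positivity)
      _ = (n.factorial * Real.exp (3 / 2)) * (Real.exp ((u.1 ^ 2 + u.2 ^ 2) / 2)
            * Real.exp (-(u.1 ^ 2 + u.2 ^ 2))) := by ring
      _ = (n.factorial * Real.exp (3 / 2)) *
            (Real.exp (-(1 / 2) * u.1 ^ 2) * Real.exp (-(1 / 2) * u.2 ^ 2)) := by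
          congr 1
          rw [← Real.exp_add, ← Real.exp_add]
          congr 1
          ring

end Vale.Agent.P097.H593
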