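import Vale.Agent.P097.H593.GQ.Sc
import Vale.Agent.P097.H289.Disc8
import Vale.Agent.P097.H725.Eg

/-!
P097, row GQ (helper593): `gq_of : H264.Core → H226.GQ`.
-/

set_option linter.all false

open Complex Metric Filter Topology Set MeasureTheory

namespace Vale.Agent.P097.H593.GQ

open Vale.Agent.P097.TC Vale.Agent.P097.H264 Vale.Agent.P097.H877.Bd

/-- the Bishop disc in the coordinate `w = ζ - e.2` -/
theorem bish_of {A : Set (ℝ × ℝ)} {e : ℝ × ℝ} {c ε p : ℝ} {H : ℂ → ℂ} (hc : 0 < c)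
    (h : H289.BD A e c ε p H) : H226.Bish A e ε c p (fun w => H ((e.2 : ℂ) + w)) where
  c0 := hc
  dc := by
    have h1 : DiffContOnCl ℂ (fun w : ℂ => (e.2 : ℂ) + w) (H226.HD 1) :=
      (Differentiable.diffContOnCl (by fun_prop))
    refine h.dc.comp h1 fun w hw => ?_
    show 0 < ((e.2 : ℂ) + w).im
    simp only [add_im, ofReal_im, zero_add]
    exact hw.2
  nn := fun w _ hw => h.re0 _ (by simpa using hw)
  bd := fun x hx => by
    have h1 := h.bd (e.2 + x) (by rwa [add_sub_cancel_left])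
    rw [ofReal_add] at h1
    exact h1
  ft := by simpa using h.ft
  z0 := by simpa using h.z0
  vt := fun r h0 h1 => by
    have := h.ver r h0 h1
    simpa using this
  hz := fun x hx => by
    have h1 := h.hor (e.2 + x) (by rwa [add_sub_cancel_left])
    rw [ofReal_add, add_sub_cancel_left] at h1
    simpa using h1

/-- the nearest multiple of `2 π` -/
theorem near_pi (a : ℂ) : ‖a - 2 * Real.pi * (round (a.re / (2 * Real.pi)) : ℤ)‖ ≤
    Real.pi + |a.im| := by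
  have hpi := Real.pi_pos
  refine (Complex.norm_le_abs_re_add_abs_im _).trans ?_
  have e1 : (a - 2 * Real.pi * ((round (a.re / (2 * Real.pi)) : ℤ) : ℂ)).re =
      a.re - 2 * Real.pi * (round (a.re / (2 * Real.pi)) : ℤ) := by
    simp
  have e2 : (a - 2 * Real.pi * ((round (a.re / (2 * Real.pi)) : ℤ) : ℂ)).im = a.im := by
    simp
  rw [e1, e2]
  have h1 := abs_sub_round (a.re / (2 * Real.pi))
  have h2 : a.re - 2 * Real.pi * (round (a.re / (2 * Real.pi)) : ℤ) =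
      2 * Real.pi * (a.re / (2 * Real.pi) - (round (a.re / (2 * Real.pi)) : ℤ)) := by
    field_simp
  rw [h2, abs_mul, abs_of_pos (by positivity : 0 < 2 * Real.pi)]
  nlinarith

theorem im_al {F : ℂ → ℂ} {al th : ℂ × ℂ → ℂ} {z : ℂ × ℂ} {K M : ℝ}
    (h : |(gg F al th z).re| ≤ K) (h2 : ‖F (th z)‖ ≤ M) : |(al z).im| ≤ K / 2 + M := by
  have e1 : (gg F al th z).re = -2 * ((al z).im - (F (th z)).im) := by
    unfold gg
    simp
  rw [e1, abs_mul] at h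
  norm_num at h
  have h3 := (Complex.abs_im_le_norm (F (th z))).trans h2
  have h4 := abs_sub_abs_le_abs_sub (al z).im (F (th z)).im
  linarith

/-- one compact piece -/
theorem one_set (hC : Core) {Λ b : ℝ} {F q : ℂ → ℂ} {e₀ : ℝ × ℝ} {ρ k : ℝ} {al p th : ℂ × ℂ → ℂ}
    (L : LW Λ b F q e₀ ρ k al p th) {A : Set (ℝ × ℝ)} (hA : IsCompact A) (hAb : A ⊆ ball e₀ ρ)
    {fs : ℝ × ℝ → ℂ} (hfs : ContinuousOn fs A)
    (hfm : ∀ e ∈ A, fs e ∈ H109.Saw.Gd b F ∧ NT th k e (fs e))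
    (unif : ∀ k₁ < k, ∀ C > 0, ∀ ε > 0, ∃ δ > 0, ∀ e ∈ A, ∀ z ∈ TB e₀ ρ (K1 k₁),
      ‖ft z - e‖ ≤ C * z.1.im → z.1.im < δ → ‖th z - fs e‖ ≤ ε) :
    ∀ᵐ e : ℝ × ℝ, e ∈ A → ∃ (r : ℕ → ℝ) (N : ℕ → ℤ), H226.Bdd F H226.Qd k al p e (fs e) r N := by
  obtain ⟨K, δ, M, -, -, -, -, -, hsaw⟩ := H109.Saw.h1 L hA hAb hfs (fun e he => (hfm e he).1) unif
  set kap := k / 2 with hkap
  have hk0 := L.k0
  have hkap0 : 0 < kap := by positivity
  have hkapk : kap < k := by rw [hkap]; linarith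
  have D : SawD F e₀ ρ k al p th A kap M := by
    refine ⟨hkap0, hkapk, fun C hC0 => ?_⟩
    obtain ⟨h, hh, -, -, h3, -, h5, h6⟩ := hsaw kap hkap0 hkapk C hC0 1 one_pos
    exact ⟨h, hh, h3, fun z hz => ⟨(h5 z hz).2.1, (h5 z hz).2.2.1⟩, h6⟩
  obtain ⟨h, hh, -, hb, hg⟩ := D.saw 20000 (by norm_num)
  have hg' : LogOm (Sw kap 20000 h A) (gg F al th) := hg
  have hop := isOpen_Sw kap 20000 h A
  have hsl : SliceCones (Sw kap 20000 h A) A := slice_Sw hkap0 (by norm_num) hh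
  filter_upwards [H289.bishop_ae hA, dich_ae2 hop hg' hA.measurableSet hsl,
    ND.nd1_ae2 hop hg' hA.measurableSet hsl] with e hB hd hn he
  have hbish : ∀ ε > 0, ∃ c p' H, H226.Bish A e ε c p' H := by
    intro ε hε
    obtain ⟨j, p', H, h1⟩ := (hB he ε hε).exists
    exact ⟨_, p', _, bish_of (by positivity) h1⟩
  obtain ⟨h₁, hh₁, hcore⟩ := hC L D he (hAb he) hbish
  -- the limit of `F ∘ th` on the axis
  have hxS : fs e ∈ Sb b := (hfm e he).1.1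
  have hF : Tendsto (fun r : ℝ => F (th (pt e r))) (𝓝[>] 0) (𝓝 (F (fs e))) := by
    have hc : ContinuousAt F (fs e) :=
      (L.cv.dF.differentiableAt ((isOpen_Sb b).mem_nhds hxS)).continuousAt
    exact hc.tendsto.comp (nt_axis hk0 (hfm e he).2)
  have hgood : ∃ h₀, 0 < h₀ ∧ h₀ ≤ h₁ ∧ ∃ K' τ c : ℝ, 0 < τ ∧ 0 < c ∧
      ∃ᶠ n : ℕ in atTop, Good F al th e (F (fs e)) h₀ K' τ c n := by
    rcases hd he with h1 | ⟨h1, h2⟩
    · obtain ⟨h₀, a1, a2, K', c, a3, a4⟩ := good_I hF h1 (hn he h1) hh₁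
      exact ⟨h₀, a1, a2, K', 1, c, one_pos, a3, a4⟩
    · obtain ⟨h₀, a1, a2, K', c, a3, a4⟩ := good_E he hkap0 le_rfl hh hg' hF h1 h2 hh₁
      exact ⟨h₀, a1, a2, K', 2, c, two_pos, a3, a4⟩
  obtain ⟨h₀, h0, h01, K', τ, c, hτ, hc, hfr⟩ := hgood
  have hsmall : ∀ᶠ n : ℕ in atTop, h₀ / 2 ^ n < h :=
    ((scale_tendsto h0).mono_right nhdsWithin_le_nhds).eventually_lt_const hh
  obtain ⟨φ, hφ, hφP⟩ := extraction_of_frequently_atTop (hfr.and_eventually hsmall)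
  have hr0 : ∀ j, 0 < h₀ / 2 ^ φ j := fun j => by positivity
  have hrt : Tendsto (fun j => h₀ / 2 ^ φ j) atTop (𝓝 0) :=
    ((scale_tendsto h0).mono_right nhdsWithin_le_nhds).comp hφ.tendsto_atTop
  have hmem : ∀ j, pt e (h₀ / 2 ^ φ j) ∈ Sw kap 20000 h A := fun j =>
    pt_Sw hkap0 (by norm_num) he (hr0 j) (hφP j).2
  refine ⟨fun j => h₀ / 2 ^ φ j,
    fun j => round ((al (pt e (h₀ / 2 ^ φ j))).re / (2 * Real.pi)), hr0, hrt, ?_, ?_, ?_⟩
  · intro W hW hWQ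
    obtain ⟨M', n₀, hM'⟩ := hcore h₀ h0 h01 K' W hW hWQ
    refine ⟨M' + (Real.pi + (K' / 2 + M)), ?_⟩
    filter_upwards [hφ.tendsto_atTop.eventually_ge_atTop n₀] with j hj z hz
    have h1 := (hM' (φ j) hj (hφP j).1.V (hφP j).1.S z hz).1
    have h2 := near_pi (al (pt e (h₀ / 2 ^ φ j)))
    have h3 : |(al (pt e (h₀ / 2 ^ φ j))).im| ≤ K' / 2 + M :=
      im_al (F := F) (th := th) (hφP j).1.V (hb _ (hmem j)).1
    have h4 := norm_add_le (al (bl e (h₀ / 2 ^ φ j) z) - al (pt e (h₀ / 2 ^ φ j)))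
      (al (pt e (h₀ / 2 ^ φ j)) -
        2 * Real.pi * (round ((al (pt e (h₀ / 2 ^ φ j))).re / (2 * Real.pi)) : ℤ))
    rw [sub_add_sub_cancel] at h4
    linarith
  · intro W hW hWQ
    obtain ⟨M', n₀, hM'⟩ := hcore h₀ h0 h01 K' W hW hWQ
    refine ⟨M', ?_⟩
    filter_upwards [hφ.tendsto_atTop.eventually_ge_atTop n₀] with j hj z hz
    exact (hM' (φ j) hj (hφP j).1.V (hφP j).1.S z hz).2
  · refine ⟨{((τ : ℂ) * I, 0)}, isCompact_singleton, ?_, c, hc, fun j => ?_⟩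
    · rw [singleton_subset_iff]
      exact I_mem hk0 hτ
    · refine ⟨_, mem_singleton _, ?_⟩
      rw [bl_I]
      exact (hφP j).1.nd

/-- **row GQ from the core** -/
theorem gq_of (hC : Core) : H226.GQ := by
  intro Λ b F q e₀ ρ k al p th L
  have hG : IsOpen (H109.Saw.Gd b F) := H109.Saw.isOpen_Gd L.cv
  have hE := fun j : ℕ => H725.eg (T := ∅) (f := th) (e₀ := e₀) (ρ := ρ) (k := k)
    (G := H109.Saw.Gd b F) L.ρ0 L.k0 L.k1 hG L.dth (1 / ((j : ℝ) + 1)) (by positivity)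
  choose A fs hAc hAb hfs hvol hfm hun using hE
  set E : Set (ℝ × ℝ) := {e ∈ ball e₀ ρ | ∃ x ∈ H109.Saw.Gd b F, NT th k e x} with hEd
  have hnull : volume (E \ ⋃ j, A j) = 0 := by
    have h1 : ∀ j : ℕ, volume (E \ ⋃ j, A j) ≤ ENNReal.ofReal (1 / ((j : ℝ) + 1)) := fun j =>
      (measure_mono (sdiff_subset_sdiff_right (subset_iUnion A j))).trans (hvol j)
    have h2 : Tendsto (fun j : ℕ => ENNReal.ofReal (1 / ((j : ℝ) + 1))) atTop (𝓝 0) := by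
      have := ENNReal.tendsto_ofReal (tendsto_one_div_add_atTop_nhds_zero_nat (𝕜 := ℝ))
      rwa [ENNReal.ofReal_zero] at this
    exact le_antisymm (ge_of_tendsto' h2 h1) bot_le
  have hae : ∀ᵐ e : ℝ × ℝ, e ∉ E \ ⋃ j, A j := by
    rw [ae_iff]
    have e1 : {a : ℝ × ℝ | ¬ a ∉ E \ ⋃ j, A j} = E \ ⋃ j, A j := by
      ext a
      exact not_not
    rw [e1]
    exact hnull
  have hall : ∀ᵐ e : ℝ × ℝ, ∀ j, e ∈ A j →
      ∃ (r : ℕ → ℝ) (N : ℕ → ℤ), H226.Bdd F H226.Qd k al p e (fs j e) r N :=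
    ae_all_iff.2 fun j => one_set hC L (hAc j) (hAb j) (hfs j) (hfm j) (hun j)
  filter_upwards [hae, hall] with e h1 h2 heb x hx hxd hNT
  have h3 : e ∈ ⋃ j, A j := by
    by_contra hcon
    exact h1 ⟨⟨heb, x, ⟨hx, hxd⟩, hNT⟩, hcon⟩
  obtain ⟨j, hj⟩ := mem_iUnion.1 h3
  have h4 : fs j e = x := nt_unique L.k0 (hfm j e hj).2 hNT
  obtain ⟨r, N, h5⟩ := h2 j hj
  rw [h4] at h5
  exact ⟨r, N, h5⟩

end Vale.Agent.P097.H593.GQ
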