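import Vale.Agent.P097.H593.GQ
import Vale.Agent.P097.H264.Core4
import Vale.Agent.P097.H264.A4K
import Vale.Agent.P097.H91.Lin

/-!
P097, the local theorem (A4) without hypotheses: `TC.A4`.
-/

namespace Vale.Agent.P097.H593

/-- row GQ -/
theorem gq : Vale.Agent.P097.H226.GQ := GQ.gq_of Vale.Agent.P097.H264.core

/-- **(A4)** -/
theorem a4 : Vale.Agent.P097.TC.A4 :=
  Vale.Agent.P097.H264.a4_of_gk (Vale.Agent.P097.H91.Lin.lin gq)

end Vale.Agent.P097.H593
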