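import Vale.Agent.P097.H264.Dich2

/-!
P097, row A4.2-ND1: non degeneracy at the feet of type I.  If `g` is holomorphic with `exp g ≠ 1`
and bounded on the vertical end over `e`, then (for almost every such `e`) `exp g - 1` stays away
from `0` on the vertical end.
-/

open Complex Metric Filter Topology Set MeasureTheory

namespace Vale.Agent.P097.H593.ND

open Vale.Agent.P097.H877.Bd Vale.Agent.P097.H699 Vale.Agent.P097.H264

/-- the axis tends to the vertex inside every cone -/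
theorem axis_tendsto (x : ℝ) {k' h' : ℝ} (hk' : 0 < k') (hh' : 0 < h') :
    Tendsto (fun r : ℝ => (x : ℂ) + r * I) (𝓝[>] 0) (𝓝[cone k' h' x] (x : ℂ)) := by
  refine tendsto_nhdsWithin_iff.mpr ⟨?_, ?_⟩
  · have : Tendsto (fun r : ℝ => (x : ℂ) + r * I) (𝓝 0) (𝓝 ((x : ℂ) + (0 : ℝ) * I)) :=
      (Continuous.tendsto (by fun_prop) 0)
    simp only [ofReal_zero, zero_mul, add_zero] at this
    exact this.mono_left nhdsWithin_le_nhds
  · filter_upwards [Ioo_mem_nhdsGT hh'] with r hr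
    exact ax_mem hk' hr.1 hr.2

/-- one variable, with the limit -/
theorem nd1_one {D : Set ℂ} {g : ℂ → ℂ} (hg : LogOm D g) {S : Set ℝ}
    (hS : ∀ x ∈ S, ∃ k > 0, ∃ h > 0, cone k h x ⊆ D) :
    ∀ᵐ x : ℝ, x ∈ S → (∃ V : ℝ, ∀ᶠ r : ℝ in 𝓝[>] 0, |(g (x + r * I)).re| ≤ V) →
      ∃ L : ℂ, Complex.exp L ≠ 1 ∧ ∀ k' > 0, ∃ h' > 0, cone k' h' x ⊆ D ∧
        Tendsto g (𝓝[cone k' h' x] (x : ℂ)) (𝓝 L) := by
  have hpr := privalov (f := fun z => Complex.exp (g z) - 1)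
    (hg.hol.cexp.sub (differentiableOn_const 1)) (D := D)
    (E := {x | ∃ k > 0, ∃ h > 0, cone k h x ⊆ D ∧
      Tendsto (fun z => Complex.exp (g z) - 1) (𝓝[cone k h x] (x : ℂ)) (𝓝 0)})
    (fun x hx => hx)
  filter_upwards [hpr, typeI_ae hg hS] with x h1 h2 hx hV
  obtain ⟨L, hL⟩ := h2 hx hV
  refine ⟨L, ?_, hL⟩
  intro hexp
  obtain ⟨h', hh', hsub, hlim⟩ := hL 1 one_pos
  have h3 : Tendsto (fun z => Complex.exp (g z) - 1) (𝓝[cone 1 h' x] (x : ℂ)) (𝓝 0) := by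
    have h4 : Tendsto (fun z => Complex.exp (g z) - 1) (𝓝[cone 1 h' x] (x : ℂ))
        (𝓝 (Complex.exp L - 1)) :=
      ((Complex.continuous_exp.tendsto L).comp hlim).sub_const 1
    rwa [hexp, sub_self] at h4
  obtain ⟨k, hk, h, hh, hsub', hz⟩ := h1 ⟨1, one_pos, h', hh', hsub, h3⟩
  have hm : (x : ℂ) + ((h / 2 : ℝ) : ℂ) * I ∈ cone k h x := ax_mem hk (by linarith) (by linarith)
  exact hg.ne _ (hsub' hm) (sub_eq_zero.mp (hz _ hm))

/-- **A4.2-ND1**, two variables: at almost every foot of type I, `exp g - 1` is bounded below on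
the vertical end -/
theorem nd1_ae2 {D : Set (ℂ × ℂ)} (hD : IsOpen D) {g : ℂ × ℂ → ℂ} (hg : LogOm D g)
    {S : Set (ℝ × ℝ)} (hSm : MeasurableSet S) (hS : SliceCones D S) :
    ∀ᵐ e : ℝ × ℝ, e ∈ S → (∃ M : ℝ, ∀ᶠ r : ℝ in 𝓝[>] 0, ‖g (pt e r)‖ ≤ M) →
      ∃ c > 0, ∀ᶠ r : ℝ in 𝓝[>] 0, c ≤ ‖Complex.exp (g (pt e r)) - 1‖ := by
  have hexpc : ContinuousOn (fun z => ‖Complex.exp (g z) - 1‖⁻¹) D := by
    refine ContinuousOn.inv₀ ?_ ?_
    · exact ((hg.hol.continuousOn.cexp).sub continuousOn_const).norm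
    · intro z hz
      exact norm_ne_zero_iff.mpr (sub_ne_zero.mpr (hg.ne z hz))
  obtain ⟨T₁, hT₁, h₁⟩ := meas_bdd hD (u := fun z => ‖g z‖) hg.hol.continuousOn.norm hS
  obtain ⟨T₂, hT₂, h₂⟩ := meas_bdd hD (u := fun z => ‖Complex.exp (g z) - 1‖⁻¹) hexpc hS
  have hnull : (volume : Measure (ℝ × ℝ)) ((S ∩ T₁) \ T₂) = 0 := by
    refine slice_null ((hSm.inter hT₁).diff hT₂) fun ξ => ?_
    have hDs : MapsTo (fun z : ℂ => (z, (ξ : ℂ))) {z : ℂ | (z, (ξ : ℂ)) ∈ D} D := fun z hz => hz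
    have hsl := nd1_one (D := {z : ℂ | (z, (ξ : ℂ)) ∈ D}) (g := fun z => g (z, (ξ : ℂ)))
      ⟨hg.hol.comp (by fun_prop) hDs, fun z hz => hg.ne _ hz⟩ (S := {x : ℝ | (x, ξ) ∈ S})
      (fun x hx => by
        obtain ⟨k, hk, h, hh, hc⟩ := hS (x, ξ) hx
        exact ⟨k, hk, h, hh, fun z hz => hc z hz⟩)
    rw [ae_iff] at hsl
    refine measure_mono_null (fun x hx => ?_) hsl
    obtain ⟨⟨hxS, hx1⟩, hx2⟩ := hx
    simp only [Set.mem_ofPred_eq, Classical.not_imp]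
    have hb := (h₁ (x, ξ) hxS).mpr hx1
    refine ⟨hxS, ?_, ?_⟩
    · obtain ⟨V, hV⟩ := hb
      exact ⟨V, hV.mono fun r hr => (Complex.abs_re_le_norm _).trans hr⟩
    rintro ⟨L, hL1, hL⟩
    refine hx2 ((h₂ (x, ξ) hxS).mp ?_)
    obtain ⟨h', hh', -, hlim⟩ := hL 1 one_pos
    have h3 := hlim.comp (axis_tendsto x one_pos hh')
    have h4 : Tendsto (fun r : ℝ => ‖Complex.exp (g (pt (x, ξ) r)) - 1‖⁻¹) (𝓝[>] 0)
        (𝓝 ‖Complex.exp L - 1‖⁻¹) :=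
      ((((Complex.continuous_exp.tendsto L).comp h3).sub_const 1).norm).inv₀
        (norm_ne_zero_iff.mpr (sub_ne_zero.mpr hL1))
    exact ⟨‖Complex.exp L - 1‖⁻¹ + 1, h4.eventually_le_const (lt_add_one _)⟩
  have hnull' : ∀ᵐ e : ℝ × ℝ, e ∉ (S ∩ T₁) \ T₂ := measure_eq_zero_iff_ae_notMem.mp hnull
  filter_upwards [hnull'] with e h4 he hM
  have h5 : e ∈ T₂ := by
    by_contra hcon
    exact h4 ⟨⟨he, (h₁ e he).mp hM⟩, hcon⟩
  obtain ⟨V, hV⟩ := (h₂ e he).mpr h5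
  obtain ⟨k, hk, h, hh, hcone⟩ := hS e he
  refine ⟨(|V| + 1)⁻¹, by positivity, ?_⟩
  filter_upwards [hV, Ioo_mem_nhdsGT hh] with r hr hrh
  have hmem : pt e r ∈ D := hcone _ (ax_mem hk hrh.1 hrh.2)
  have hpos : 0 < ‖Complex.exp (g (pt e r)) - 1‖ :=
    norm_pos_iff.mpr (sub_ne_zero.mpr (hg.ne _ hmem))
  rw [inv_le_comm₀ (by positivity) hpos]
  exact hr.trans ((le_abs_self V).trans (by linarith))

/-- `|sin δ|` from `exp (2 i δ) - 1` -/
theorem sin_low {δ : ℂ} {M c : ℝ} (hM : |δ.im| ≤ M) (hc : c ≤ ‖Complex.exp (2 * I * δ) - 1‖) :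
    c * Real.exp (-M) / 2 ≤ ‖Complex.sin δ‖ := by
  have h1 : Complex.sin δ = (Complex.exp (2 * I * δ) - 1) * Complex.exp (-(I * δ)) / (2 * I) := by
    have h2 : Complex.exp (2 * I * δ) = Complex.exp (I * δ) * Complex.exp (I * δ) := by
      rw [← Complex.exp_add]; congr 1; ring
    have h3 : Complex.exp (I * δ) * Complex.exp (-(I * δ)) = 1 := by
      rw [← Complex.exp_add, add_neg_cancel, Complex.exp_zero]
    rw [Complex.sin]
    have h4 : -δ * I = -(I * δ) := by ring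
    have h5 : δ * I = I * δ := by ring
    rw [h4, h5, h2, div_eq_div_iff two_ne_zero (mul_ne_zero two_ne_zero I_ne_zero)]
    have h6 : (Complex.exp (-(I * δ)) - Complex.exp (I * δ)) * I * (2 * I)
        = -2 * (Complex.exp (-(I * δ)) - Complex.exp (I * δ)) := by
      linear_combination 2 * (Complex.exp (-(I * δ)) - Complex.exp (I * δ)) * I_mul_I
    rw [h6]
    linear_combination (-2 * Complex.exp (I * δ)) * h3
  rw [h1, norm_div, norm_mul, norm_mul, Complex.norm_I, Complex.norm_exp]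
  have h2 : ‖(2 : ℂ)‖ = 2 := by simp
  rw [h2, mul_one]
  have h3 : (-(I * δ)).re = δ.im := by simp
  rw [h3]
  have h4 : Real.exp (-M) ≤ Real.exp δ.im := Real.exp_le_exp.mpr (neg_le_of_abs_le hM)
  have h5 : c * Real.exp (-M) ≤ ‖Complex.exp (2 * I * δ) - 1‖ * Real.exp δ.im := by
    calc c * Real.exp (-M) ≤ ‖Complex.exp (2 * I * δ) - 1‖ * Real.exp (-M) :=
          mul_le_mul_of_nonneg_right hc (Real.exp_pos _).le
      _ ≤ ‖Complex.exp (2 * I * δ) - 1‖ * Real.exp δ.im :=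
          mul_le_mul_of_nonneg_left h4 (norm_nonneg _)
  linarith

end Vale.Agent.P097.H593.ND
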