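import Mathlib

/-! P097, row (T3) of helper91's cut of the T-lemma of helper589: part a, the truncated
logarithm, its sub-mean value property, and the explicit discs. -/

namespace Vale.Agent.P097.H593

open MeasureTheory Metric Set Filter Topology Complex Real

/-- the truncated logarithm `max (log ‖z‖) (log c)`. -/
noncomputable def lg (c : ℝ) (z : ℂ) : ℝ := Real.log (max ‖z‖ c)

theorem lg_continuous {c : ℝ} (hc : 0 < c) : Continuous (lg c) := by
  unfold lg
  refine Continuous.log (by fun_prop) ?_
  intro z
  exact (lt_of_lt_of_le hc (le_max_right _ _)).ne'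

theorem le_lg_const {c : ℝ} (hc : 0 < c) (z : ℂ) : Real.log c ≤ lg c z :=
  Real.log_le_log hc (le_max_right _ _)

theorem log_le_lg {c : ℝ} {z : ℂ} (hz : z ≠ 0) : Real.log ‖z‖ ≤ lg c z :=
  Real.log_le_log (norm_pos_iff.2 hz) (le_max_left _ _)

theorem lg_eq_log {c : ℝ} {z : ℂ} (h : c ≤ ‖z‖) : lg c z = Real.log ‖z‖ := by
  unfold lg; rw [max_eq_left h]

theorem lg_mono {c c' : ℝ} (hc : 0 < c) (h : c ≤ c') (z : ℂ) : lg c z ≤ lg c' z :=
  Real.log_le_log (lt_of_lt_of_le hc (le_max_right _ _)) (max_le_max le_rfl h)

theorem lg_le {c M : ℝ} (hc : 0 < c) (hM : c ≤ M) {z : ℂ} (hz : ‖z‖ ≤ M) :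
    lg c z ≤ Real.log M :=
  Real.log_le_log (lt_of_lt_of_le hc (le_max_right _ _)) (max_le hz hM)

/-- Sub-mean value property of the truncated logarithm of an analytic function. -/
theorem lg_submean {f : ℂ → ℂ} {z0 : ℂ} {R c : ℝ} (hR : 0 < R) (hc : 0 < c)
    (hf : AnalyticOnNhd ℂ f (closedBall z0 R)) :
    lg c (f z0) ≤ circleAverage (fun z => lg c (f z)) z0 R := by
  have habs : |R| = R := abs_of_pos hR
  have hcont : ContinuousOn (fun z => lg c (f z)) (sphere z0 |R|) := by
    rw [habs]
    exact (lg_continuous hc).comp_continuousOn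
      (hf.continuousOn.mono sphere_subset_closedBall)
  have hint : CircleIntegrable (fun z => lg c (f z)) z0 R :=
    ContinuousOn.circleIntegrable' hcont
  have hlow : Real.log c ≤ circleAverage (fun z => lg c (f z)) z0 R := by
    have h1 : circleAverage (fun _ : ℂ => Real.log c) z0 R
        ≤ circleAverage (fun z => lg c (f z)) z0 R := by
      refine circleAverage_mono ?_ hint ?_
      · exact ContinuousOn.circleIntegrable' continuousOn_const
      · intro x _
        exact le_lg_const hc _
    rwa [circleAverage_const] at h1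
  by_cases h0 : ‖f z0‖ < c
  · have h2 : lg c (f z0) = Real.log c := by
      unfold lg
      rw [max_eq_right h0.le]
    rw [h2]; exact hlow
  · have h0' : c ≤ ‖f z0‖ := not_lt.1 h0
    replace h0 : f z0 ≠ 0 := by
      intro h; rw [h, norm_zero] at h0'; linarith
    rw [lg_eq_log h0']
    have hf' : AnalyticOnNhd ℂ f (closedBall z0 |R|) := by rw [habs]; exact hf
    have hJ := AnalyticOnNhd.circleAverage_log_norm hR.ne' hf' h0
    have hi : CircleIntegrable (fun z => Real.log ‖f z‖) z0 R :=
      (hf'.mono sphere_subset_closedBall).meromorphicOn.circleIntegrable_log_norm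
    have hnn : 0 ≤ ∑ᶠ u, MeromorphicOn.divisor f (closedBall z0 |R|) u
        * Real.log (R * ‖z0 - u‖⁻¹) := by
      refine finsum_nonneg fun u => ?_
      by_cases hu : u ∈ closedBall z0 |R|
      · have h1 : 0 ≤ MeromorphicOn.divisor f (closedBall z0 |R|) u :=
          MeromorphicOn.AnalyticOnNhd.divisor_nonneg hf' u
        have h1' : (0:ℝ) ≤ ((MeromorphicOn.divisor f (closedBall z0 |R|) u : ℤ) : ℝ) := by
          exact_mod_cast h1
        refine mul_nonneg h1' ?_
        by_cases hz : z0 - u = 0
        · rw [hz]; simp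
        · have hp : 0 < ‖z0 - u‖ := norm_pos_iff.2 hz
          refine Real.log_nonneg ?_
          rw [← div_eq_mul_inv, le_div_iff₀ hp, one_mul]
          rw [mem_closedBall, dist_comm, dist_eq_norm, habs] at hu
          exact hu
      · rw [Function.locallyFinsuppWithin.apply_eq_zero_of_notMem _ hu]
        simp
    have hle : Real.log ‖f z0‖ ≤ circleAverage (fun z => Real.log ‖f z‖) z0 R := by
      have := hJ
      linarith [this.symm.le, hnn]
    have hcod : f ⁻¹' {0}ᶜ ∈ codiscreteWithin (closedBall z0 |R|) := by
      refine AnalyticOnNhd.preimage_zero_mem_codiscreteWithin hf' h0 ?_ ?_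
      · rw [habs]; exact mem_closedBall_self hR.le
      · rw [habs]
        exact ⟨⟨z0, mem_closedBall_self hR.le⟩, (convex_closedBall z0 R).isPreconnected⟩
    have hcod' : f ⁻¹' {0}ᶜ ∈ codiscreteWithin (sphere z0 |R|) :=
      codiscreteWithin_mono sphere_subset_closedBall hcod
    have hcg : circleAverage (fun z => if f z = 0 then (0:ℝ) else lg c (f z)) z0 R
        = circleAverage (fun z => lg c (f z)) z0 R := by
      refine circleAverage_congr_codiscreteWithin ?_ hR.ne'
      filter_upwards [hcod'] with z hz
      have : f z ≠ 0 := hz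
      simp [this]
    have hic : CircleIntegrable (fun z => if f z = 0 then (0:ℝ) else lg c (f z)) z0 R := by
      have : (fun z => lg c (f z)) =ᶠ[codiscreteWithin (sphere z0 |R|)]
          (fun z => if f z = 0 then (0:ℝ) else lg c (f z)) := by
        filter_upwards [hcod'] with z hz
        have : f z ≠ 0 := hz
        simp [this]
      exact hint.congr_codiscreteWithin this
    rw [← hcg]
    refine hle.trans (circleAverage_mono hi hic ?_)
    intro z _
    by_cases hz : f z = 0
    · simp [hz]
    · simp only [hz, if_false]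
      exact log_le_lg hz

end Vale.Agent.P097.H593
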