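import Vale.Agent.P097.H593.T3a

/-! P097, row (T3): part b, the Moebius disc tangent to the real line and the raise. -/

namespace Vale.Agent.P097.H593

open MeasureTheory Metric Set Filter Topology Complex Real

/-- Moebius map of the unit disc onto the disc `{‖z‖^2 < Im z}`, `0 ↦ i t`. -/
noncomputable def am (t : ℝ) (w : ℂ) : ℂ := I * t * (1 - w) / (1 + (1 - 2 * t : ℝ) * w)

theorem am_zero (t : ℝ) : am t 0 = I * t := by simp [am]

theorem am_den {t : ℝ} (ht : 0 < t) (ht' : t < 1 / 2) {w : ℂ} (hw : ‖w‖ ≤ 1) :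
    (1 + (1 - 2 * t : ℝ) * w : ℂ) ≠ 0 := by
  intro h
  have h1 : ((1 - 2 * t : ℝ) : ℂ) * w = -1 := by linear_combination h
  have h2 : ‖((1 - 2 * t : ℝ) : ℂ) * w‖ = 1 := by rw [h1]; simp
  rw [norm_mul, Complex.norm_real, Real.norm_eq_abs, abs_of_pos (by linarith)] at h2
  nlinarith [norm_nonneg w]

theorem am_analytic {t : ℝ} (ht : 0 < t) (ht' : t < 1 / 2) :
    AnalyticOnNhd ℂ (am t) (closedBall 0 1) := by
  intro w hw
  unfold am
  have hw' : ‖w‖ ≤ 1 := by simpa using hw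
  exact AnalyticAt.div (by fun_prop) (by fun_prop) (am_den ht ht' hw')

/-- the closed unit disc goes into the closed disc `‖z‖^2 ≤ Im z`, the circle into the circle. -/
theorem am_im {t : ℝ} (ht : 0 < t) (ht' : t < 1 / 2) {w : ℂ} (hw : ‖w‖ ≤ 1) :
    (am t w).im - ‖am t w‖ ^ 2
      = t * (1 - t) * (1 - ‖w‖ ^ 2) / ‖(1 + (1 - 2 * t : ℝ) * w : ℂ)‖ ^ 2 := by
  have hden := am_den ht ht' hw
  have hn : normSq (1 + (1 - 2 * t : ℝ) * w : ℂ) ≠ 0 := by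
    rwa [Ne, Complex.normSq_eq_zero]
  unfold am
  rw [norm_div, div_pow, Complex.div_im]
  rw [← Complex.normSq_eq_norm_sq, ← Complex.normSq_eq_norm_sq, ← Complex.normSq_eq_norm_sq]
  have hn' := hn
  set D := normSq (1 + (1 - 2 * t : ℝ) * w : ℂ) with hD
  field_simp
  simp only [Complex.normSq_apply]
  simp
  ring

theorem am_im_ge {t : ℝ} (ht : 0 < t) (ht' : t < 1 / 2) {w : ℂ} (hw : ‖w‖ ≤ 1) :
    ‖am t w‖ ^ 2 ≤ (am t w).im := by
  have h := am_im ht ht' hw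
  have h1 : 0 ≤ t * (1 - t) * (1 - ‖w‖ ^ 2) / ‖(1 + (1 - 2 * t : ℝ) * w : ℂ)‖ ^ 2 := by
    have : 0 ≤ 1 - ‖w‖ ^ 2 := by nlinarith [norm_nonneg w]
    have h2 : 0 ≤ 1 - t := by linarith
    positivity
  linarith

theorem am_im_eq {t : ℝ} (ht : 0 < t) (ht' : t < 1 / 2) {w : ℂ} (hw : ‖w‖ = 1) :
    (am t w).im = ‖am t w‖ ^ 2 := by
  have h := am_im ht ht' hw.le
  rw [hw] at h
  simp at h
  linarith

theorem am_norm_le {t : ℝ} (ht : 0 < t) (ht' : t < 1 / 2) {w : ℂ} (hw : ‖w‖ ≤ 1) :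
    ‖am t w‖ ≤ 1 := by
  have h := am_im_ge ht ht' hw
  have h1 : (am t w).im ≤ ‖am t w‖ := (le_abs_self _).trans (abs_im_le_norm _)
  by_contra hc
  push Not at hc
  nlinarith

theorem am_circleAverage {t : ℝ} (ht : 0 < t) (ht' : t < 1 / 2) :
    circleAverage (fun w => (am t w).im) 0 1 = t := by
  have hd : DiffContOnCl ℂ (am t) (ball 0 |1|) := by
    rw [abs_one]
    have := (am_analytic ht ht').differentiableOn
    exact this.diffContOnCl_ball (subset_refl _)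
  have h := hd.circleAverage
  have hci : CircleIntegrable (am t) 0 1 := by
    refine ContinuousOn.circleIntegrable' ?_
    rw [abs_one]
    exact (am_analytic ht ht').continuousOn.mono sphere_subset_closedBall
  have h2 := Complex.imCLM.circleAverage_comp_comm hci
  rw [h, am_zero] at h2
  have h3 : (Complex.imCLM ∘ am t) = fun w => (am t w).im := rfl
  rw [h3] at h2
  rw [h2]
  simp

/-- the raise: `h(z) = m + a (-iz) b / (b - iz)`, `m = a t^2/(b+t)`. -/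
noncomputable def hr (a b t : ℝ) (z : ℂ) : ℂ :=
  ((a * t ^ 2 / (b + t) : ℝ) : ℂ) + a * b * (-I * z) / (b - I * z)

theorem hr_den {b : ℝ} (hb : 0 < b) {z : ℂ} (hz : 0 ≤ z.im) :
    b + z.im ≤ ‖(b - I * z : ℂ)‖ ∧ (b - I * z : ℂ) ≠ 0 := by
  have h : b + z.im ≤ ‖(b - I * z : ℂ)‖ := by
    refine le_trans ?_ (re_le_norm _)
    simp
  refine ⟨h, ?_⟩
  intro h0
  rw [h0, norm_zero] at h
  linarith

theorem hr_center {a b t : ℝ} (hb : 0 < b) (ht : 0 < t) :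
    hr a b t (I * t) = (a * t : ℝ) := by
  unfold hr
  have h1 : (b - I * (I * t) : ℂ) = ((b + t : ℝ) : ℂ) := by
    push_cast
    linear_combination (-(t:ℂ)) * I_mul_I
  have h2 : (a * b * (-I * (I * t)) : ℂ) = ((a * b * t : ℝ) : ℂ) := by
    push_cast
    linear_combination (-(a:ℂ) * b * t) * I_mul_I
  rw [h1, h2, ← ofReal_div, ← ofReal_add]
  congr 1
  have : b + t ≠ 0 := by positivity
  field_simp
  ring

theorem hr_re {a b t : ℝ} (hb : 0 < b) {z : ℂ} (hz : 0 ≤ z.im) :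
    (hr a b t z).re = a * t ^ 2 / (b + t)
      + a * b * (b * z.im + ‖z‖ ^ 2) / ‖(b - I * z : ℂ)‖ ^ 2 := by
  obtain ⟨-, hden⟩ := hr_den hb hz
  have hn : normSq (b - I * z : ℂ) ≠ 0 := by rwa [Ne, Complex.normSq_eq_zero]
  unfold hr
  rw [Complex.add_re, Complex.ofReal_re, Complex.div_re]
  rw [← Complex.normSq_eq_norm_sq, ← Complex.normSq_eq_norm_sq]
  congr 1
  field_simp
  rw [Complex.normSq_apply]
  simp
  ring

theorem hr_re_ge {a b t : ℝ} (ha : 0 ≤ a) (hb : 0 < b) {z : ℂ} (hz : 0 ≤ z.im) :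
    a * t ^ 2 / (b + t) ≤ (hr a b t z).re := by
  rw [hr_re hb hz]
  have : 0 ≤ a * b * (b * z.im + ‖z‖ ^ 2) / ‖(b - I * z : ℂ)‖ ^ 2 := by positivity
  linarith

theorem hr_re_near {a b t : ℝ} (ha : 0 ≤ a) (hb : 0 < b) {z : ℂ} (hz : 0 ≤ z.im)
    (hzb : ‖z‖ ≤ b) :
    a * t ^ 2 / (b + t) + a / (4 * b) * ‖z‖ ^ 2 ≤ (hr a b t z).re := by
  rw [hr_re hb hz]
  obtain ⟨hd, hden⟩ := hr_den hb hz
  have h1 : ‖(b - I * z : ℂ)‖ ≤ 2 * b := by
    calc ‖(b - I * z : ℂ)‖ ≤ ‖(b:ℂ)‖ + ‖I * z‖ := norm_sub_le _ _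
      _ = b + ‖z‖ := by simp [abs_of_pos hb]
      _ ≤ 2 * b := by linarith
  have hpos : 0 < ‖(b - I * z : ℂ)‖ := norm_pos_iff.2 hden
  have h2 : a / (4 * b) * ‖z‖ ^ 2 ≤ a * b * (b * z.im + ‖z‖ ^ 2) / ‖(b - I * z : ℂ)‖ ^ 2 := by
    rw [le_div_iff₀ (by positivity)]
    have h3 : ‖(b - I * z : ℂ)‖ ^ 2 ≤ (2 * b) ^ 2 := by gcongr
    calc a / (4 * b) * ‖z‖ ^ 2 * ‖(b - I * z : ℂ)‖ ^ 2
        ≤ a / (4 * b) * ‖z‖ ^ 2 * (2 * b) ^ 2 := by gcongr
      _ = a * b * (‖z‖ ^ 2) := by field_simp; ring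
      _ ≤ a * b * (b * z.im + ‖z‖ ^ 2) := by
          have : 0 ≤ b * z.im := by positivity
          gcongr
          linarith
  linarith

theorem hr_norm_le {a b t : ℝ} (ha : 0 ≤ a) (hb : 0 < b) (ht : 0 < t) {z : ℂ}
    (hz : 0 ≤ z.im) :
    ‖hr a b t z‖ ≤ a * t ^ 2 / (b + t) + a * ‖z‖ := by
  obtain ⟨hd, hden⟩ := hr_den hb hz
  unfold hr
  refine (norm_add_le _ _).trans ?_
  have h1 : ‖((a * t ^ 2 / (b + t) : ℝ) : ℂ)‖ = a * t ^ 2 / (b + t) := by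
    rw [Complex.norm_real, Real.norm_eq_abs, abs_of_nonneg (by positivity)]
  rw [h1]
  have h2 : ‖(a * b * (-I * z) / (b - I * z) : ℂ)‖ ≤ a * ‖z‖ := by
    rw [norm_div, div_le_iff₀ (norm_pos_iff.2 hden)]
    have h3 : ‖(a * b * (-I * z) : ℂ)‖ = a * b * ‖z‖ := by
      rw [norm_mul, norm_mul, norm_mul, Complex.norm_real, Complex.norm_real]
      simp [abs_of_nonneg ha, abs_of_pos hb]
    rw [h3]
    have h4 : b ≤ ‖(b - I * z : ℂ)‖ := by linarith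
    calc a * b * ‖z‖ = a * ‖z‖ * b := by ring
      _ ≤ a * ‖z‖ * ‖(b - I * z : ℂ)‖ := by gcongr
  linarith

theorem hr_analyticAt {a b t : ℝ} (hb : 0 < b) {z : ℂ} (hz : 0 ≤ z.im) :
    AnalyticAt ℂ (hr a b t) z := by
  obtain ⟨-, hden⟩ := hr_den hb hz
  unfold hr
  exact AnalyticAt.add analyticAt_const (AnalyticAt.div (by fun_prop) (by fun_prop) hden)

end Vale.Agent.P097.H593
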