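import Vale.Agent.P097.H593.T3b

/-! P097, row (T3): part c, averaged truncated logarithms, the abstract disc inequality. -/

namespace Vale.Agent.P097.H593

open MeasureTheory Metric Set Filter Topology Complex Real

variable {V E : Type*} [NormedAddCommGroup V] [NormedSpace ℝ V]
  [NormedAddCommGroup E] [NormedSpace ℂ E] [NormedSpace ℝ E] [IsScalarTower ℝ ℂ E]

/-- `x + i y`. -/
noncomputable def pt (ι : V →L[ℝ] E) (x y : V) : E := ι x + (I : ℂ) • ι y

omit [IsScalarTower ℝ ℂ E] in
theorem pt_continuous (ι : V →L[ℝ] E) : Continuous (fun p : V × V => pt ι p.1 p.2) := by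
  unfold pt
  fun_prop

/-- averaged truncated logarithm: `J_c(x + i y) = ∫ log max(|S(x + u + i y)|, c) φ(u) dμ(u)`. -/
noncomputable def Jc [MeasurableSpace V] (ι : V →L[ℝ] E) (S : E → ℂ) (φ : V → ℝ)
    (μ : Measure V) (c : ℝ) (x y : V) : ℝ :=
  ∫ u, lg c (S (pt ι (x + u) y)) * φ u ∂μ

variable [MeasurableSpace V] [BorelSpace V]

omit [IsScalarTower ℝ ℂ E] [BorelSpace V] in
theorem Jc_eq_set (ι : V →L[ℝ] E) (S : E → ℂ) (φ : V → ℝ)
    (μ : Measure V) (c : ℝ) (x y : V) :
    Jc ι S φ μ c x y = ∫ u in tsupport φ, lg c (S (pt ι (x + u) y)) * φ u ∂μ := by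
  unfold Jc
  symm
  refine setIntegral_eq_integral_of_forall_compl_eq_zero ?_
  intro u hu
  rw [image_eq_zero_of_notMem_tsupport hu, mul_zero]

omit [IsScalarTower ℝ ℂ E] in
/-- the disc inequality for the averages. -/
theorem Jc_disc [SecondCountableTopology V] [CompleteSpace E] {ι : V →L[ℝ] E} {S : E → ℂ} {φ : V → ℝ}
    {μ : Measure V}
    [IsLocallyFiniteMeasure μ] [SFinite μ] {K : Set V} {Ω : Set E} {c : ℝ} (hc : 0 < c)
    (hφ : Continuous φ) (hφc : HasCompactSupport φ) (hφ0 : ∀ u, 0 ≤ φ u)
    (hΩ : IsOpen Ω) (hK : ∀ x, ∀ y ∈ K, pt ι x y ∈ Ω) (hS : DifferentiableOn ℂ S Ω)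
    {X Y : ℂ → V} (hX : ContinuousOn X (closedBall 0 1)) (hY : ContinuousOn Y (closedBall 0 1))
    (hYK : ∀ w ∈ closedBall (0:ℂ) 1, Y w ∈ K)
    (han : AnalyticOnNhd ℂ (fun w => pt ι (X w) (Y w)) (closedBall 0 1)) :
    CircleIntegrable (fun w => Jc ι S φ μ c (X w) (Y w)) 0 1 ∧
    Jc ι S φ μ c (X 0) (Y 0) ≤ circleAverage (fun w => Jc ι S φ μ c (X w) (Y w)) 0 1 := by
  have hs : IsCompact (tsupport φ) := hφc
  -- the continuous kernel on `ℝ × V`
  set F : ℝ → V → ℝ := fun θ u =>
    lg c (S (pt ι (X (circleMap 0 1 θ) + u) (Y (circleMap 0 1 θ)))) * φ u with hF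
  have hcm : ∀ θ : ℝ, circleMap 0 1 θ ∈ closedBall (0:ℂ) 1 := fun θ =>
    circleMap_mem_closedBall 0 zero_le_one θ
  have hXc : Continuous (fun θ : ℝ => X (circleMap 0 1 θ)) :=
    hX.comp_continuous (continuous_circleMap 0 1) hcm
  have hYc : Continuous (fun θ : ℝ => Y (circleMap 0 1 θ)) :=
    hY.comp_continuous (continuous_circleMap 0 1) hcm
  have hFc : Continuous F.uncurry := by
    have h1 : Continuous (fun p : ℝ × V =>
        pt ι (X (circleMap 0 1 p.1) + p.2) (Y (circleMap 0 1 p.1))) := by
      exact (pt_continuous ι).comp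
        (((hXc.comp continuous_fst).add continuous_snd).prodMk (hYc.comp continuous_fst))
    have h2 : Continuous (fun p : ℝ × V =>
        S (pt ι (X (circleMap 0 1 p.1) + p.2) (Y (circleMap 0 1 p.1)))) :=
      hS.continuousOn.comp_continuous h1 (fun p => hK _ _ (hYK _ (hcm _)))
    exact ((lg_continuous hc).comp h2).mul (hφ.comp continuous_snd)
  have hJF : ∀ θ : ℝ, Jc ι S φ μ c (X (circleMap 0 1 θ)) (Y (circleMap 0 1 θ))
      = ∫ u in tsupport φ, F θ u ∂μ := fun θ => Jc_eq_set ι S φ μ c _ _
  have hJcont : Continuous (fun θ : ℝ => ∫ u in tsupport φ, F θ u ∂μ) :=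
    continuous_parametric_integral_of_continuous hFc hs
  constructor
  · have : IntervalIntegrable (fun θ : ℝ => ∫ u in tsupport φ, F θ u ∂μ) volume 0 (2 * π) :=
      hJcont.intervalIntegrable _ _
    unfold CircleIntegrable
    refine this.congr ?_
    intro θ _
    exact (hJF θ).symm
  · -- pointwise sub-mean value property
    have hpt : ∀ u, lg c (S (pt ι (X 0 + u) (Y 0))) * φ u
        ≤ (2 * π)⁻¹ * ∫ θ in (0)..(2 * π), F θ u := by
      intro u
      have hg : AnalyticOnNhd ℂ (fun w => S (pt ι (X w + u) (Y w))) (closedBall 0 1) := by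
        intro w hw
        have h0 : (fun w => pt ι (X w + u) (Y w)) = fun w => pt ι (X w) (Y w) + ι u := by
          funext w; unfold pt; rw [map_add]; abel
        have h1 : AnalyticAt ℂ (fun w => pt ι (X w + u) (Y w)) w := by
          rw [h0]
          exact (han w hw).add analyticAt_const
        have h2 : ∀ᶠ w' in 𝓝 w, pt ι (X w' + u) (Y w') ∈ Ω :=
          h1.continuousAt.eventually_mem (hΩ.mem_nhds (hK _ _ (hYK w hw)))
        rw [analyticAt_iff_eventually_differentiableAt]
        filter_upwards [h2, h1.eventually_analyticAt] with w' hw' ha'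
        exact ((hS.differentiableAt (hΩ.mem_nhds hw')).comp w' ha'.differentiableAt)
      have h3 := lg_submean one_pos hc hg
      rw [circleAverage_def] at h3
      have h4 : ∫ θ in (0)..(2 * π), F θ u
          = (∫ θ in (0)..(2 * π), lg c (S (pt ι (X (circleMap 0 1 θ) + u)
              (Y (circleMap 0 1 θ))))) * φ u := by
        rw [← intervalIntegral.integral_mul_const]
      rw [h4, ← mul_assoc]
      exact mul_le_mul_of_nonneg_right h3 (hφ0 u)
    have hint1 : IntegrableOn (fun u => lg c (S (pt ι (X 0 + u) (Y 0))) * φ u) (tsupport φ) μ := by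
      refine ContinuousOn.integrableOn_compact hs (Continuous.continuousOn ?_)
      have h1 : Continuous (fun u : V => pt ι (X 0 + u) (Y 0)) :=
        (pt_continuous ι).comp ((continuous_const.add continuous_id).prodMk continuous_const)
      have h2 : Continuous (fun u : V => S (pt ι (X 0 + u) (Y 0))) :=
        hS.continuousOn.comp_continuous h1 (fun p => hK _ _ (hYK _ (by simp)))
      exact ((lg_continuous hc).comp h2).mul hφ
    have hprod : Integrable F.uncurry
        ((volume.restrict (Ioc 0 (2 * π))).prod (μ.restrict (tsupport φ))) := by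
      rw [Measure.prod_restrict]
      have : IntegrableOn F.uncurry (Icc 0 (2 * π) ×ˢ tsupport φ) (volume.prod μ) :=
        ContinuousOn.integrableOn_compact (isCompact_Icc.prod hs) hFc.continuousOn
      exact this.mono_set (prod_mono Ioc_subset_Icc_self subset_rfl)
    have hint2 : IntegrableOn (fun u => ∫ θ in (0)..(2 * π), F θ u) (tsupport φ) μ := by
      have h := hprod.integral_prod_right
      have h2 : (fun u => ∫ θ in (0)..(2 * π), F θ u)
          = fun u => ∫ θ, F θ u ∂(volume.restrict (Ioc 0 (2 * π))) := by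
        funext u
        rw [intervalIntegral.integral_of_le (by positivity)]
      rw [h2]
      exact h
    calc Jc ι S φ μ c (X 0) (Y 0)
        = ∫ u in tsupport φ, lg c (S (pt ι (X 0 + u) (Y 0))) * φ u ∂μ := Jc_eq_set ι S φ μ c _ _
      _ ≤ ∫ u in tsupport φ, ((2 * π)⁻¹ * ∫ θ in (0)..(2 * π), F θ u) ∂μ := by
          refine integral_mono hint1 (hint2.const_mul _) ?_
          exact hpt
      _ = (2 * π)⁻¹ * ∫ u in tsupport φ, (∫ θ in (0)..(2 * π), F θ u) ∂μ := by
          rw [integral_const_mul]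
      _ = (2 * π)⁻¹ * ∫ θ in (0)..(2 * π), (∫ u in tsupport φ, F θ u ∂μ) := by
          congr 1
          rw [intervalIntegral.integral_of_le (by positivity)]
          rw [integral_integral_swap hprod]
          refine integral_congr_ae (Eventually.of_forall fun u => ?_)
          simp only
          rw [intervalIntegral.integral_of_le (by positivity)]
      _ = circleAverage (fun w => Jc ι S φ μ c (X w) (Y w)) 0 1 := by
          rw [circleAverage_def, smul_eq_mul]
          congr 1
          refine intervalIntegral.integral_congr fun θ _ => ?_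
          exact (hJF θ).symm

end Vale.Agent.P097.H593
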