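import Vale.Agent.P097.H593.T3c

/-! P097, row (T3): part d, the main statement. -/

namespace Vale.Agent.P097.H593

open MeasureTheory Metric Set Filter Topology Complex Real

variable {V E : Type*} [NormedAddCommGroup V] [NormedSpace ℝ V]
  [NormedAddCommGroup E] [NormedSpace ℂ E] [NormedSpace ℝ E] [IsScalarTower ℝ ℂ E]

/-- the averaged logarithm. -/
noncomputable def J0 [MeasurableSpace V] (ι : V →L[ℝ] E) (S : E → ℂ) (φ : V → ℝ)
    (μ : Measure V) (x y : V) : ℝ :=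
  ∫ u, Real.log ‖S (pt ι (x + u) y)‖ * φ u ∂μ

/-- the real and imaginary part of the disc. -/
noncomputable def Xw (a b t : ℝ) (x v' e : V) (w : ℂ) : V :=
  x + (am t w).re • v' - (hr a b t (am t w)).im • e

noncomputable def Yw (a b t : ℝ) (v' e : V) (w : ℂ) : V :=
  (am t w).im • v' + (hr a b t (am t w)).re • e

theorem am_im_nonneg {t : ℝ} (ht : 0 < t) (ht' : t < 1 / 2) {w : ℂ} (hw : ‖w‖ ≤ 1) :
    0 ≤ (am t w).im := (sq_nonneg _).trans (am_im_ge ht ht' hw)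

theorem pt_eq (ι : V →L[ℝ] E) (a b t : ℝ) (x v' e : V) (w : ℂ) :
    pt ι (Xw a b t x v' e w) (Yw a b t v' e w)
      = ι x + (am t w) • ι v' + (I * hr a b t (am t w)) • ι e := by
  unfold pt Xw Yw
  simp only [map_add, map_sub, map_smul]
  set z := am t w
  set h := hr a b t z
  have h1 : (z : ℂ) • ι v' = z.re • ι v' + (I : ℂ) • (z.im • ι v') := by
    rw [← algebraMap_smul ℂ z.re (ι v'), ← algebraMap_smul ℂ z.im (ι v'), smul_smul, ← add_smul]
    congr 1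
    simp only [coe_algebraMap]
    conv_lhs => rw [← re_add_im z]
    ring
  have h2 : (I * h : ℂ) • ι e = (I : ℂ) • (h.re • ι e) - h.im • ι e := by
    rw [← algebraMap_smul ℂ h.re (ι e), ← algebraMap_smul ℂ h.im (ι e), smul_smul, ← sub_smul]
    congr 1
    simp only [coe_algebraMap]
    conv_lhs => rw [← re_add_im h]
    linear_combination (h.im : ℂ) * I_mul_I
  rw [h1, h2, smul_add]
  abel

theorem Xw_zero {a b t : ℝ} (hb : 0 < b) (ht : 0 < t) (x v' e : V) :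
    Xw a b t x v' e 0 = x := by
  unfold Xw
  rw [am_zero, hr_center hb ht]
  simp

theorem Yw_zero {a b t : ℝ} (hb : 0 < b) (ht : 0 < t) (v e : V) :
    Yw a b t (v - a • e) e 0 = t • v := by
  unfold Yw
  rw [am_zero, hr_center hb ht]
  simp only [ofReal_re]
  have : (I * t : ℂ).im = t := by simp
  rw [this, smul_sub, smul_smul, mul_comm a t]
  abel

theorem hr_am_cont {a b t : ℝ} (hb : 0 < b) (ht : 0 < t) (ht' : t < 1 / 2) :
    ContinuousOn (fun w => hr a b t (am t w)) (closedBall 0 1) := by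
  intro w hw
  have hw' : ‖w‖ ≤ 1 := by simpa using hw
  have h1 : ContinuousAt (hr a b t) (am t w) :=
    (hr_analyticAt hb (am_im_nonneg ht ht' hw')).continuousAt
  exact (h1.comp ((am_analytic ht ht') w hw).continuousAt).continuousWithinAt

theorem Xw_cont {a b t : ℝ} (hb : 0 < b) (ht : 0 < t) (ht' : t < 1 / 2) (x v' e : V) :
    ContinuousOn (Xw a b t x v' e) (closedBall 0 1) := by
  unfold Xw
  have h1 := hr_am_cont (a := a) hb ht ht'
  have h2 := (am_analytic ht ht').continuousOn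
  have h3 : ContinuousOn (fun w => (am t w).re) (closedBall 0 1) :=
    Complex.continuous_re.comp_continuousOn h2
  have h4 : ContinuousOn (fun w => (hr a b t (am t w)).im) (closedBall 0 1) :=
    Complex.continuous_im.comp_continuousOn h1
  exact (continuousOn_const.add (h3.smul continuousOn_const)).sub (h4.smul continuousOn_const)

theorem Yw_cont {a b t : ℝ} (hb : 0 < b) (ht : 0 < t) (ht' : t < 1 / 2) (v' e : V) :
    ContinuousOn (Yw a b t v' e) (closedBall 0 1) := by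
  unfold Yw
  have h1 := hr_am_cont (a := a) hb ht ht'
  have h2 := (am_analytic ht ht').continuousOn
  have h3 : ContinuousOn (fun w => (am t w).im) (closedBall 0 1) :=
    Complex.continuous_im.comp_continuousOn h2
  have h4 : ContinuousOn (fun w => (hr a b t (am t w)).re) (closedBall 0 1) :=
    Complex.continuous_re.comp_continuousOn h1
  exact (h3.smul continuousOn_const).add (h4.smul continuousOn_const)

theorem pt_analytic [CompleteSpace E] (ι : V →L[ℝ] E) {a b t : ℝ} (hb : 0 < b) (ht : 0 < t)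
    (ht' : t < 1 / 2) (x v' e : V) :
    AnalyticOnNhd ℂ (fun w => pt ι (Xw a b t x v' e w) (Yw a b t v' e w)) (closedBall 0 1) := by
  intro w hw
  have hw' : ‖w‖ ≤ 1 := by simpa using hw
  simp_rw [pt_eq]
  have h1 := (am_analytic ht ht') w hw
  have h2 : AnalyticAt ℂ (fun w => hr a b t (am t w)) w :=
    (hr_analyticAt hb (am_im_nonneg ht ht' hw')).comp h1
  exact (analyticAt_const.add (h1.smul analyticAt_const)).add
    ((analyticAt_const.mul h2).smul analyticAt_const)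

/-- cone arithmetic. -/
theorem cone_mem {K : Set V} (hs : ∀ y ∈ K, ∀ r : ℝ, 0 < r → r • y ∈ K)
    (ha : ∀ y ∈ K, ∀ y' ∈ K, y + y' ∈ K) {v e : V} (hv : v ∈ K) (he : e ∈ K) {r s : ℝ}
    (hr : 0 ≤ r) (hs' : 0 ≤ s) (hrs : 0 < r ∨ 0 < s) : r • v + s • e ∈ K := by
  rcases hr.eq_or_lt with h | h
  · rcases hs'.eq_or_lt with h' | h'
    · rcases hrs with h1 | h1 <;> linarith
    · rw [← h, zero_smul, zero_add]; exact hs _ he _ h'
  · rcases hs'.eq_or_lt with h' | h'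
    · rw [← h', zero_smul, add_zero]; exact hs _ hv _ h
    · exact ha _ (hs _ hv _ h) _ (hs _ he _ h')



omit [IsScalarTower ℝ ℂ E] in
/-- uniform bound of `S` far from the edge. -/
theorem far_S [ProperSpace V] {ι : V →L[ℝ] E} {S : E → ℂ} {K2 : Set V} {Ω : Set E} {T : Set V}
    (hT : IsCompact T)
    (hK2s : ∀ y ∈ K2, ∀ r : ℝ, 0 < r → r • y ∈ K2)
    (hK2a : ∀ y ∈ K2, ∀ y' ∈ K2, y + y' ∈ K2)
    (hK : ∀ x, ∀ y ∈ K2, pt ι x y ∈ Ω) (hS : DifferentiableOn ℂ S Ω)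
    {Q' : Set V} (hQ'c : IsCompact Q') (hQ'sub : Q' ⊆ K2) {e : V} (he : e ∈ K2)
    {r' : ℝ} (hr'p : 0 < r') (R H : ℝ) :
    ∃ M : ℝ, 1 ≤ M ∧ ∀ x' : V, ‖x'‖ ≤ R → ∀ u ∈ T,
      ∀ η : ℝ, r' ^ 2 ≤ η → η ≤ 1 → ∀ v' ∈ Q', ∀ h : ℝ, 0 ≤ h → h ≤ H →
      ‖S (pt ι (x' + u) (η • v' + h • e))‖ ≤ M := by
  set C : Set (V × V × ℝ × V × ℝ) :=
    closedBall 0 R ×ˢ T ×ˢ Icc (r' ^ 2) 1 ×ˢ Q' ×ˢ Icc 0 H with hC
  have hCc : IsCompact C :=
    (isCompact_closedBall _ _).prod (IsCompact.prod hT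
      (isCompact_Icc.prod (hQ'c.prod isCompact_Icc)))
  have hcont : ContinuousOn (fun p : V × V × ℝ × V × ℝ =>
      S (pt ι (p.1 + p.2.1) (p.2.2.1 • p.2.2.2.1 + p.2.2.2.2 • e))) C := by
    refine hS.continuousOn.comp ?_ ?_
    · refine Continuous.continuousOn ?_
      unfold pt
      fun_prop
    · rintro ⟨x', u, η, v', h⟩ ⟨-, -, hη, hv', hh⟩
      refine hK _ _ ?_
      have hη0 : 0 < η := lt_of_lt_of_le (by positivity) hη.1
      exact cone_mem hK2s hK2a (hQ'sub hv') he hη0.le hh.1 (Or.inl hη0)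
  obtain ⟨M, hM⟩ := (hCc.image_of_continuousOn hcont).isBounded.exists_norm_le
  refine ⟨max M 1, le_max_right _ _, ?_⟩
  intro x' hx' u hu η hη1 hη2 v' hv' h hh1 hh2
  refine le_trans (hM _ ⟨(x', u, η, v', h), ⟨?_, hu, ⟨hη1, hη2⟩, hv', ⟨hh1, hh2⟩⟩, rfl⟩)
    (le_max_left _ _)
  simpa using hx'

variable [MeasurableSpace V] [BorelSpace V]

omit [IsScalarTower ℝ ℂ E] in
/-- far bound for the averages. -/
theorem far_J [ProperSpace V] {ι : V →L[ℝ] E} {S : E → ℂ} {φ : V → ℝ}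
    {μ : Measure V} [IsLocallyFiniteMeasure μ] {K2 : Set V} {Ω : Set E}
    (hK2s : ∀ y ∈ K2, ∀ r : ℝ, 0 < r → r • y ∈ K2)
    (hK2a : ∀ y ∈ K2, ∀ y' ∈ K2, y + y' ∈ K2)
    (hK : ∀ x, ∀ y ∈ K2, pt ι x y ∈ Ω) (hS : DifferentiableOn ℂ S Ω)
    (hφ : Continuous φ) (hφc : HasCompactSupport φ) (hφ0 : ∀ u, 0 ≤ φ u)
    {Q' : Set V} (hQ'c : IsCompact Q') (hQ'sub : Q' ⊆ K2) {e : V} (he : e ∈ K2)
    {r' : ℝ} (hr'p : 0 < r') (R H : ℝ) :
    ∃ C1 : ℝ, ∀ c, 0 < c → c ≤ 1 → ∀ x' : V, ‖x'‖ ≤ R →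
      ∀ η : ℝ, r' ^ 2 ≤ η → η ≤ 1 → ∀ v' ∈ Q', ∀ h : ℝ, 0 ≤ h → h ≤ H →
      Jc ι S φ μ c x' (η • v' + h • e) ≤ C1 := by
  obtain ⟨M, hM1, hM⟩ := far_S (ι := ι) (S := S) (Ω := Ω) hφc hK2s hK2a hK hS hQ'c hQ'sub he
    hr'p R H
  refine ⟨Real.log M * ∫ u, φ u ∂μ, ?_⟩
  have hφi : Integrable φ μ := hφ.integrable_of_hasCompactSupport hφc
  intro c hc hc1' x' hx' η hη1 hη2 v' hv' h hh1 hh2
  have hy : η • v' + h • e ∈ K2 := by
    have hη0 : 0 < η := lt_of_lt_of_le (by positivity) hη1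
    exact cone_mem hK2s hK2a (hQ'sub hv') he hη0.le hh1 (Or.inl hη0)
  rw [Jc_eq_set, ← integral_const_mul]
  have h2 : ∫ u, Real.log M * φ u ∂μ = ∫ u in tsupport φ, Real.log M * φ u ∂μ := by
    symm
    refine setIntegral_eq_integral_of_forall_compl_eq_zero ?_
    intro u hu
    rw [image_eq_zero_of_notMem_tsupport hu, mul_zero]
  rw [h2]
  refine setIntegral_mono_on ?_ ?_ (isClosed_tsupport φ).measurableSet ?_
  · refine ContinuousOn.integrableOn_compact hφc (Continuous.continuousOn ?_)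
    have h1 : Continuous (fun u : V => pt ι (x' + u) (η • v' + h • e)) :=
      (pt_continuous ι).comp ((continuous_const.add continuous_id).prodMk continuous_const)
    have h2 : Continuous (fun u : V => S (pt ι (x' + u) (η • v' + h • e))) :=
      hS.continuousOn.comp_continuous h1 (fun p => hK _ _ hy)
    exact ((lg_continuous hc).comp h2).mul hφ
  · exact (hφi.const_mul _).integrableOn
  · intro u hu
    refine mul_le_mul_of_nonneg_right ?_ (hφ0 u)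
    exact lg_le hc (hc1'.trans hM1) (hM x' hx' u hu η hη1 hη2 v' hv' h hh1 hh2)

/-- the average of an affine function of `Im am`. -/
theorem avg_affine {t : ℝ} (ht : 0 < t) (ht' : t < 1 / 2) (A C : ℝ) :
    CircleIntegrable (fun w => A + C * (am t w).im) 0 1 ∧
    circleAverage (fun w => A + C * (am t w).im) 0 1 = A + C * t := by
  have h2 := (am_analytic ht ht').continuousOn.mono (sphere_subset_closedBall)
  have himi : CircleIntegrable (fun w => (am t w).im) 0 1 := by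
    refine ContinuousOn.circleIntegrable' ?_
    rw [abs_one]
    exact Complex.continuous_im.comp_continuousOn h2
  constructor
  · refine ContinuousOn.circleIntegrable' ?_
    rw [abs_one]
    exact continuousOn_const.add (continuousOn_const.mul
      (Complex.continuous_im.comp_continuousOn h2))
  · have hCi : CircleIntegrable (fun w => C * (am t w).im) 0 1 := by
      refine ContinuousOn.circleIntegrable' ?_
      rw [abs_one]
      exact continuousOn_const.mul (Complex.continuous_im.comp_continuousOn h2)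
    rw [circleAverage_fun_add (ContinuousOn.circleIntegrable' continuousOn_const)
      hCi, circleAverage_const]
    have : circleAverage (fun w => C * (am t w).im) 0 1
        = C * circleAverage (fun w => (am t w).im) 0 1 := by
      have := circleAverage_fun_smul (a := C) (f := fun w => (am t w).im) (c := 0) (R := 1)
      simpa using this
    rw [this, am_circleAverage ht ht']

omit [MeasurableSpace V] [BorelSpace V] [IsScalarTower ℝ ℂ E] in
/-- near points of the disc sit over `K1`. -/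
theorem near_Y {Q' : Set V} {e : V} {r1 c1 a b t : ℝ} (ha : 0 < a) (hc1p : 0 < c1)
    (hb : b = c1 * a / 4) (ht : 0 < t) (ht' : t < 1 / 2)
    (hE1 : ∀ v' ∈ Q', ∀ s : ℝ, 0 ≤ s → s ≤ c1 → e + s • v' ∈ closedBall e r1)
    {v' : V} (hv'Q : v' ∈ Q') {w : ℂ} (hw : ‖w‖ = 1) (hwr : ‖am t w‖ ≤ b) :
    ∃ y ∈ closedBall e r1, Yw a b t v' e w = (hr a b t (am t w)).re • y := by
  have hbp : 0 < b := by rw [hb]; positivity
  have hz := am_im_nonneg ht ht' hw.le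
  have h1 : 0 < (hr a b t (am t w)).re :=
    lt_of_lt_of_le (by positivity) (hr_re_ge (t := t) ha.le hbp hz)
  refine ⟨e + ((am t w).im / (hr a b t (am t w)).re) • v', ?_, ?_⟩
  · refine hE1 v' hv'Q _ (div_nonneg hz h1.le) ?_
    rw [div_le_iff₀ h1]
    have h2 := hr_re_near (a := a) (t := t) ha.le hbp hz hwr
    rw [← am_im_eq ht ht' hw] at h2
    have h3 : (am t w).im = c1 * (a / (4 * b) * (am t w).im) := by
      rw [hb]; field_simp
    have h5 : 0 < a * t ^ 2 / (b + t) := by positivity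
    have h4 : a / (4 * b) * (am t w).im ≤ (hr a b t (am t w)).re := by linarith
    calc (am t w).im = c1 * (a / (4 * b) * (am t w).im) := h3
      _ ≤ c1 * (hr a b t (am t w)).re := by gcongr
  · unfold Yw
    rw [smul_add, smul_smul, mul_div_cancel₀ _ h1.ne']
    abel

omit [MeasurableSpace V] [BorelSpace V] [IsScalarTower ℝ ℂ E] in
/-- the truncation level. -/
theorem trunc_level {ι : V →L[ℝ] E} {S : E → ℂ} {K1 K2 : Set V} {Ω : Set E} {T : Set V}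
    (hT : IsCompact T)
    (hK : ∀ x, ∀ y ∈ K2, pt ι x y ∈ Ω) (hS : DifferentiableOn ℂ S Ω)
    (hS1 : ∀ x, ∀ y ∈ K1, S (pt ι x y) ≠ 0)
    {a b t r' : ℝ} (hbp : 0 < b) (ht : 0 < t) (ht' : t < 1 / 2) (x v' e : V)
    (hYK : ∀ w ∈ closedBall (0:ℂ) 1, Yw a b t v' e w ∈ K2)
    (hnear : ∀ w : ℂ, ‖w‖ = 1 → ‖am t w‖ ≤ r' → Yw a b t v' e w ∈ K1) :
    ∃ c0 > 0, ∀ w : ℂ, ‖w‖ = 1 → ‖am t w‖ ≤ r' → ∀ u ∈ T,
      c0 ≤ ‖S (pt ι (Xw a b t x v' e w + u) (Yw a b t v' e w))‖ := by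
  have hsub : sphere (0:ℂ) 1 ⊆ closedBall 0 1 := sphere_subset_closedBall
  have hAc : ContinuousOn (fun w => ‖am t w‖) (sphere (0:ℂ) 1) :=
    ((am_analytic ht ht').continuousOn.mono hsub).norm
  have hcl : IsCompact (sphere (0:ℂ) 1 ∩ {w | ‖am t w‖ ≤ r'}) := by
    have h1 : IsClosed (sphere (0:ℂ) 1 ∩ (fun w => ‖am t w‖) ⁻¹' Iic r') :=
      hAc.preimage_isClosed_of_isClosed isClosed_sphere isClosed_Iic
    exact (isCompact_sphere (0:ℂ) 1).of_isClosed_subset h1 inter_subset_left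
  have hcont : ContinuousOn (fun p : ℂ × V =>
      ‖S (pt ι (Xw a b t x v' e p.1 + p.2) (Yw a b t v' e p.1))‖)
      ((sphere (0:ℂ) 1 ∩ {w | ‖am t w‖ ≤ r'}) ×ˢ T) := by
    refine ContinuousOn.norm ?_
    refine hS.continuousOn.comp ?_ ?_
    · have h1 : ContinuousOn (fun p : ℂ × V => Xw a b t x v' e p.1)
          ((sphere (0:ℂ) 1 ∩ {w | ‖am t w‖ ≤ r'}) ×ˢ T) :=
        (Xw_cont hbp ht ht' x v' e).comp continuousOn_fst
          (fun p hp => hsub hp.1.1)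
      have h2 : ContinuousOn (fun p : ℂ × V => Yw a b t v' e p.1)
          ((sphere (0:ℂ) 1 ∩ {w | ‖am t w‖ ≤ r'}) ×ˢ T) :=
        (Yw_cont hbp ht ht' v' e).comp continuousOn_fst
          (fun p hp => hsub hp.1.1)
      exact (pt_continuous ι).comp_continuousOn ((h1.add continuousOn_snd).prodMk h2)
    · intro p hp
      exact hK _ _ (hYK _ (hsub hp.1.1))
  obtain ⟨c0, hc0, hle⟩ := (hcl.prod hT).exists_forall_le' hcont (a := 0) (by
    rintro ⟨w, u⟩ ⟨⟨hw1, hw2⟩, hu⟩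
    have hw1' : ‖w‖ = 1 := by simpa using hw1
    exact norm_pos_iff.2 (hS1 _ _ (hnear w hw1' hw2)))
  exact ⟨c0, hc0, fun w hw1 hw2 u hu => hle (w, u) ⟨⟨by simpa using hw1, hw2⟩, hu⟩⟩

theorem arith1 {κ B a E' N : ℝ} (hκ : 0 ≤ κ) (hB : 0 ≤ B) (ha : 0 ≤ a) (hE : 0 ≤ E')
    (hN : N = B + a * E' + a + E' + 1) :
    κ + κ * B + (a * κ + a * κ) * E' ≤ 2 * κ * N ∧ a * κ + a * κ ≤ 2 * κ * N := by
  rw [hN]
  have h1 : 0 ≤ κ * B := by positivity
  have h2 : 0 ≤ κ * a := by positivity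
  have h3 : 0 ≤ κ * E' := by positivity
  have h4 : 0 ≤ κ * (a * E') := by positivity
  have e1 : 2 * κ * (B + a * E' + a + E' + 1)
      = 2 * (κ * B) + 2 * (κ * (a * E')) + 2 * (κ * a) + 2 * (κ * E') + 2 * κ := by ring
  have e2 : κ + κ * B + (a * κ + a * κ) * E' = κ + κ * B + 2 * (κ * (a * E')) := by ring
  rw [e1, e2]
  constructor
  · linarith
  · linarith

omit [MeasurableSpace V] [BorelSpace V] in
/-- size bounds for the disc. -/
theorem Xw_norm {a b t B m : ℝ} (ha : 0 ≤ a) (hb : 0 < b) (ht : 0 < t) (ht' : t < 1 / 2)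
    (hm : m = a * t ^ 2 / (b + t)) {x v' e : V} (hB : ‖v'‖ ≤ B) {w : ℂ} (hw : ‖w‖ ≤ 1) :
    ‖Xw a b t x v' e w‖ ≤ ‖x‖ + ‖am t w‖ * B + (m + a * ‖am t w‖) * ‖e‖ ∧
    (hr a b t (am t w)).re ≤ m + a * ‖am t w‖ := by
  have hz := am_im_nonneg ht ht' hw
  have hh := hr_norm_le ha hb ht hz
  rw [← hm] at hh
  constructor
  · unfold Xw
    refine (norm_sub_le _ _).trans (add_le_add ((norm_add_le _ _).trans
      (add_le_add le_rfl ?_)) ?_)
    · rw [norm_smul, Real.norm_eq_abs]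
      exact mul_le_mul (abs_re_le_norm _) hB (norm_nonneg _) (norm_nonneg _)
    · rw [norm_smul, Real.norm_eq_abs]
      exact mul_le_mul_of_nonneg_right ((abs_im_le_norm _).trans hh) (norm_nonneg _)
  · exact (le_abs_self _).trans ((abs_re_le_norm _).trans hh)

omit [MeasurableSpace V] [BorelSpace V] in
/-- the geometric constants. -/
theorem geom {K1 K2 : Set V} (hK1o : IsOpen K1) (hK2o : IsOpen K2) {Q : Set V}
    (hQ : IsCompact Q) (hQK : Q ⊆ K2) {e : V} (he : e ∈ K1) :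
    ∃ a > (0:ℝ), ∃ B > (0:ℝ), ∃ r1 > (0:ℝ), ∃ c1 > (0:ℝ), closedBall e r1 ⊆ K1 ∧
      (∀ v' ∈ (fun v => v - a • e) '' Q, v' ∈ K2 ∧ ‖v'‖ ≤ B ∧
        ∀ s : ℝ, 0 ≤ s → s ≤ c1 → e + s • v' ∈ closedBall e r1) := by
  obtain ⟨d, hd, hdK⟩ := hQ.exists_cthickening_subset_open hK2o hQK
  obtain ⟨a, ha, hae⟩ : ∃ a > (0:ℝ), a * ‖e‖ ≤ d := by
    refine ⟨d / (‖e‖ + 1), by positivity, ?_⟩
    rw [div_mul_eq_mul_div, div_le_iff₀ (by positivity)]
    nlinarith [norm_nonneg e]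
  have hQ'K : ∀ v ∈ Q, v - a • e ∈ K2 := by
    intro v hv
    refine hdK (mem_cthickening_of_dist_le _ v d Q hv ?_)
    rw [dist_eq_norm]
    have : v - a • e - v = -(a • e) := by abel
    rw [this, norm_neg, norm_smul, Real.norm_eq_abs, abs_of_pos ha]
    exact hae
  have hQ'c : IsCompact ((fun v => v - a • e) '' Q) := hQ.image (by fun_prop)
  obtain ⟨B, hB0, hB⟩ : ∃ B > 0, ∀ v' ∈ (fun v => v - a • e) '' Q, ‖v'‖ ≤ B := by
    obtain ⟨B, hB⟩ := hQ'c.isBounded.exists_norm_le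
    exact ⟨max B 1, by positivity, fun v hv => (hB v hv).trans (le_max_left _ _)⟩
  obtain ⟨r1, hr1, hr1K⟩ := Metric.nhds_basis_closedBall.mem_iff.1 (hK1o.mem_nhds he)
  have hr1' : (0:ℝ) < r1 := hr1
  refine ⟨a, ha, B, hB0, r1, hr1', r1 / B, by positivity, hr1K, ?_⟩
  intro v' hv'
  refine ⟨?_, hB v' hv', ?_⟩
  · obtain ⟨v, hv, rfl⟩ := hv'; exact hQ'K v hv
  · intro s hs hsc
    rw [mem_closedBall, dist_eq_norm, add_sub_cancel_left, norm_smul, Real.norm_eq_abs,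
      abs_of_nonneg hs]
    calc s * ‖v'‖ ≤ (r1 / B) * B := mul_le_mul hsc (hB v' hv') (norm_nonneg _) (by positivity)
      _ = r1 := by field_simp

/-- the estimate for one disc. -/
theorem one_disc [ProperSpace V] [CompleteSpace E] {ι : V →L[ℝ] E} {S : E → ℂ} {φ : V → ℝ}
    {μ : Measure V} [IsLocallyFiniteMeasure μ] [SFinite μ] {K1 K2 : Set V} {Ω : Set E}
    (hK1s : ∀ y ∈ K1, ∀ r : ℝ, 0 < r → r • y ∈ K1)
    (hK2s : ∀ y ∈ K2, ∀ r : ℝ, 0 < r → r • y ∈ K2)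
    (hK2a : ∀ y ∈ K2, ∀ y' ∈ K2, y + y' ∈ K2)
    (hΩ : IsOpen Ω) (hK : ∀ x, ∀ y ∈ K2, pt ι x y ∈ Ω) (hS : DifferentiableOn ℂ S Ω)
    (hS1 : ∀ x, ∀ y ∈ K1, S (pt ι x y) ≠ 0)
    (hφ : Continuous φ) (hφc : HasCompactSupport φ) (hφ0 : ∀ u, 0 ≤ φ u)
    {A C1 C2 a b t B m r1 c1 r' δ1 H κ N : ℝ} {x v' e : V} {Q' : Set V}
    (heK : e ∈ K2) (hv'K : v' ∈ K2) (hr1K : closedBall e r1 ⊆ K1)
    (hL : ∀ x, ‖x‖ < δ1 →
      ∀ r : ℝ, 0 < r → r < δ1 → ∀ y ∈ closedBall e r1, J0 ι S φ μ x (r • y) ≤ A)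
    (hfar : ∀ c, 0 < c → c ≤ 1 → ∀ x' : V, ‖x'‖ ≤ 1 + B + H * ‖e‖ →
      ∀ η : ℝ, r' ^ 2 ≤ η → η ≤ 1 → ∀ v' ∈ Q', ∀ h : ℝ, 0 ≤ h → h ≤ H →
      Jc ι S φ μ c x' (η • v' + h • e) ≤ C1)
    (ha : 0 < a) (hc1p : 0 < c1) (hb : b = c1 * a / 4) (hBn : ‖v'‖ ≤ B) (hr'b : r' ≤ b)
    (hr'κ : r' ≤ κ) (hr'p : 0 < r')
    (hE1 : ∀ v' ∈ Q', ∀ s : ℝ, 0 ≤ s → s ≤ c1 → e + s • v' ∈ closedBall e r1)
    (hv'Q : v' ∈ Q') (ht : 0 < t) (ht' : t < 1 / 2) (hx1 : ‖x‖ ≤ 1) (hx2 : ‖x‖ ≤ κ) (ht2 : t ≤ κ)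
    (hm : m = a * t ^ 2 / (b + t)) (hN : N = B + a * ‖e‖ + a + ‖e‖ + 1)
    (hκN : 2 * κ * N < δ1) (hH : H = a + a) (hC2n : 0 ≤ C2)
    (hC : C1 ≤ A + C2 * r' ^ 2) :
    ∃ c0 > 0, ∀ c, 0 < c → c ≤ c0 →
      Jc ι S φ μ c (Xw a b t x v' e 0) (Yw a b t v' e 0) ≤ A + C2 * t := by
  have hbp : 0 < b := by rw [hb]; positivity
  have hB0 : 0 ≤ B := (norm_nonneg _).trans hBn
  have hκp : 0 < κ := lt_of_lt_of_le ht ht2
  have hmp : 0 < m := by rw [hm]; positivity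
  have hmt : m ≤ a * t := by
    rw [hm, div_le_iff₀ (by positivity)]
    have h1 : 0 ≤ a * t * b := by positivity
    nlinarith
  have hzim : ∀ w : ℂ, ‖w‖ ≤ 1 → 0 ≤ (am t w).im := fun w hw => am_im_nonneg ht ht' hw
  have hhre : ∀ w : ℂ, ‖w‖ ≤ 1 → m ≤ (hr a b t (am t w)).re := fun w hw => by
    rw [hm]; exact hr_re_ge ha.le hbp (hzim w hw)
  have hYK : ∀ w ∈ closedBall (0:ℂ) 1, Yw a b t v' e w ∈ K2 := by
    intro w hw
    have hw' : ‖w‖ ≤ 1 := by simpa using hw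
    have h1 : 0 < (hr a b t (am t w)).re := lt_of_lt_of_le hmp (hhre w hw')
    exact cone_mem hK2s hK2a hv'K heK (hzim w hw') h1.le (Or.inr h1)
  have hnearY : ∀ w : ℂ, ‖w‖ = 1 → ‖am t w‖ ≤ r' →
      ∃ y ∈ closedBall e r1, Yw a b t v' e w = (hr a b t (am t w)).re • y :=
    fun w hw hwr => near_Y ha hc1p hb ht ht' hE1 hv'Q hw (hwr.trans hr'b)
  obtain ⟨c0, hc0, hc0S⟩ := trunc_level (ι := ι) (S := S) (Ω := Ω) (K1 := K1) hφc hK hS hS1
    hbp ht ht' x v' e hYK (r' := r') (by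
      intro w hw1 hw2
      obtain ⟨y, hy, hYy⟩ := hnearY w hw1 hw2
      have h1 : 0 < (hr a b t (am t w)).re := lt_of_lt_of_le hmp (hhre w hw1.le)
      rw [hYy]
      exact hK1s _ (hr1K hy) _ h1)
  refine ⟨min c0 1, by positivity, ?_⟩
  intro c hc hcc
  have hcc0 : c ≤ c0 := hcc.trans (min_le_left _ _)
  have hcc1 : c ≤ 1 := hcc.trans (min_le_right _ _)
  obtain ⟨hci, hineq⟩ := Jc_disc (ι := ι) (S := S) (φ := φ) (μ := μ) (K := K2) (Ω := Ω) hc hφ hφc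
    hφ0 hΩ hK hS (Xw_cont hbp ht ht' x v' e) (Yw_cont hbp ht ht' v' e) hYK
    (pt_analytic ι hbp ht ht' x v' e)
  refine hineq.trans ?_
  have hbd : ∀ w ∈ sphere (0:ℂ) |1|, Jc ι S φ μ c (Xw a b t x v' e w) (Yw a b t v' e w)
      ≤ A + C2 * (am t w).im := by
    intro w hw
    have hw1 : ‖w‖ = 1 := by simpa using hw
    have hz1 := am_norm_le ht ht' hw1.le
    have hz0 := hzim w hw1.le
    obtain ⟨hXn, hhre'⟩ := Xw_norm (x := x) (v' := v') (e := e) ha.le hbp ht ht' hm hBn hw1.le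
    by_cases hnear : ‖am t w‖ ≤ r'
    · obtain ⟨y, hy, hYy⟩ := hnearY w hw1 hnear
      have h1 : 0 < (hr a b t (am t w)).re := lt_of_lt_of_le hmp (hhre w hw1.le)
      have hJ : Jc ι S φ μ c (Xw a b t x v' e w) (Yw a b t v' e w)
          = J0 ι S φ μ (Xw a b t x v' e w) (Yw a b t v' e w) := by
        unfold Jc J0
        refine integral_congr_ae (Eventually.of_forall fun u => ?_)
        by_cases hu : u ∈ tsupport φ
        · simp only
          rw [lg_eq_log (hcc0.trans (hc0S w hw1 hnear u hu))]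
        · simp only
          rw [image_eq_zero_of_notMem_tsupport hu, mul_zero, mul_zero]
      rw [hJ, hYy]
      have hzκ : ‖am t w‖ ≤ κ := hnear.trans hr'κ
      have hmκ : m ≤ a * κ := hmt.trans (mul_le_mul_of_nonneg_left ht2 ha.le)
      have har := arith1 hκp.le hB0 ha.le (norm_nonneg e) hN
      have hXδ : ‖Xw a b t x v' e w‖ < δ1 :=
        lt_of_le_of_lt (hXn.trans (add_le_add (add_le_add hx2
          (mul_le_mul_of_nonneg_right hzκ hB0)) (mul_le_mul_of_nonneg_right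
          (add_le_add hmκ (mul_le_mul_of_nonneg_left hzκ ha.le)) (norm_nonneg e))))
          (lt_of_le_of_lt har.1 hκN)
      have hrδ : (hr a b t (am t w)).re < δ1 :=
        lt_of_le_of_lt (hhre'.trans
          (add_le_add hmκ (mul_le_mul_of_nonneg_left hzκ ha.le)))
          (lt_of_le_of_lt har.2 hκN)
      have h4 := hL _ hXδ _ h1 hrδ y hy
      have h5 : 0 ≤ C2 * (am t w).im := mul_nonneg hC2n hz0
      exact h4.trans (le_add_of_nonneg_right h5)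
    · have hnear' : r' < ‖am t w‖ := not_le.1 hnear
      have hη : r' ^ 2 ≤ (am t w).im := by
        rw [am_im_eq ht ht' hw1]
        exact pow_le_pow_left₀ hr'p.le hnear'.le 2
      have hη1 : (am t w).im ≤ 1 := (le_abs_self _).trans ((abs_im_le_norm _).trans hz1)
      have haz : a * ‖am t w‖ ≤ a := by
        calc a * ‖am t w‖ ≤ a * 1 := mul_le_mul_of_nonneg_left hz1 ha.le
          _ = a := mul_one a
      have hma : m ≤ a := by
        refine hmt.trans ?_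
        calc a * t ≤ a * 1 := mul_le_mul_of_nonneg_left (by linarith) ha.le
          _ = a := mul_one a
      have hmH : m + a * ‖am t w‖ ≤ H := by rw [hH]; exact add_le_add hma haz
      have hXf : ‖Xw a b t x v' e w‖ ≤ 1 + B + H * ‖e‖ := by
        refine hXn.trans (add_le_add (add_le_add hx1 ?_)
          (mul_le_mul_of_nonneg_right hmH (norm_nonneg e)))
        calc ‖am t w‖ * B ≤ 1 * B := mul_le_mul_of_nonneg_right hz1 hB0
          _ = B := one_mul B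
      have h1 : Jc ι S φ μ c (Xw a b t x v' e w) (Yw a b t v' e w) ≤ C1 :=
        hfar c hc hcc1 (Xw a b t x v' e w) hXf (am t w).im hη hη1 v' hv'Q
          (hr a b t (am t w)).re (hmp.le.trans (hhre w hw1.le)) (hhre'.trans hmH)
      exact h1.trans (hC.trans (add_le_add le_rfl (mul_le_mul_of_nonneg_left hη hC2n)))
  obtain ⟨hlin, hav⟩ := avg_affine ht ht' A C2
  exact (circleAverage_mono hci hlin hbd).trans hav.le

/-- **(T3)**: the upper limit over the cones of `K2` is bounded by the one over the cones of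
`K1`. -/
theorem limsup_cone [ProperSpace V] [CompleteSpace E] {ι : V →L[ℝ] E} {S : E → ℂ} {φ : V → ℝ}
    {μ : Measure V} [IsLocallyFiniteMeasure μ] [SFinite μ] {K1 K2 : Set V} {Ω : Set E}
    (hK1o : IsOpen K1) (hK1s : ∀ y ∈ K1, ∀ r : ℝ, 0 < r → r • y ∈ K1) (hK1n : K1.Nonempty)
    (hK2o : IsOpen K2) (hK2s : ∀ y ∈ K2, ∀ r : ℝ, 0 < r → r • y ∈ K2)
    (hK2a : ∀ y ∈ K2, ∀ y' ∈ K2, y + y' ∈ K2) (hK12 : K1 ⊆ K2)
    (hΩ : IsOpen Ω) (hK : ∀ x, ∀ y ∈ K2, pt ι x y ∈ Ω) (hS : DifferentiableOn ℂ S Ω)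
    (hS1 : ∀ x, ∀ y ∈ K1, S (pt ι x y) ≠ 0)
    (hφ : Continuous φ) (hφc : HasCompactSupport φ) (hφ0 : ∀ u, 0 ≤ φ u)
    {L : ℝ}
    (hL : ∀ Q : Set V, IsCompact Q → Q ⊆ K1 → ∀ ε > 0, ∃ δ > 0, ∀ x, ‖x‖ < δ →
      ∀ r : ℝ, 0 < r → r < δ → ∀ y ∈ Q, J0 ι S φ μ x (r • y) ≤ L + ε)
    {Q : Set V} (hQ : IsCompact Q) (hQK : Q ⊆ K2) {ε : ℝ} (hε : 0 < ε) :
    ∃ δ > 0, ∀ x, ‖x‖ < δ → ∀ t : ℝ, 0 < t → t < δ → ∀ v ∈ Q,
      ∃ c0 > 0, ∀ c, 0 < c → c ≤ c0 → Jc ι S φ μ c x (t • v) ≤ L + ε := by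
  obtain ⟨e, he⟩ := hK1n
  obtain ⟨a, ha, B, hB0, r1, hr1, c1, hc1p, hr1K, hQ'⟩ := geom hK1o hK2o hQ hQK he
  have hQ'c : IsCompact ((fun v => v - a • e) '' Q) := hQ.image (by fun_prop)
  set b : ℝ := c1 * a / 4 with hb
  have hbp : 0 < b := by positivity
  obtain ⟨δ1, hδ1, hδ1L⟩ := hL (closedBall e r1) (isCompact_closedBall e r1) hr1K (ε / 2)
    (by positivity)
  set N : ℝ := B + a * ‖e‖ + a + ‖e‖ + 1 with hN
  have hNp : 0 < N := by positivity
  set κ : ℝ := δ1 / (4 * N) with hκ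
  have hκp : 0 < κ := by positivity
  have hκN : 2 * κ * N < δ1 := by
    have : 2 * κ * N = δ1 / 2 := by rw [hκ]; field_simp; ring
    linarith
  set r' : ℝ := min b κ with hr'
  have hr'p : 0 < r' := by positivity
  set H : ℝ := a + a with hH
  obtain ⟨C1, hfar⟩ := far_J (ι := ι) (S := S) (φ := φ) (μ := μ) (Ω := Ω) hK2s hK2a hK hS hφ hφc
    hφ0 hQ'c (fun v hv => (hQ' v hv).1) (hK12 he) hr'p (1 + B + H * ‖e‖) H
  set C2 : ℝ := (|C1| + |L|) / r' ^ 2 with hC2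
  have hC2n : 0 ≤ C2 := by positivity
  have hC : C1 ≤ (L + ε / 2) + C2 * r' ^ 2 := by
    have h1 : C2 * r' ^ 2 = |C1| + |L| := by rw [hC2]; field_simp
    rw [h1]
    have h4 := le_abs_self C1
    have h5 := neg_abs_le L
    linarith
  refine ⟨min (1 / 4) (min κ (ε / (2 * (C2 + 1)))), by positivity, ?_⟩
  intro x hx t ht htδ v hv
  have hx1 : ‖x‖ < 1 / 4 := lt_of_lt_of_le hx (min_le_left _ _)
  have hx2 : ‖x‖ < κ := lt_of_lt_of_le hx ((min_le_right _ _).trans (min_le_left _ _))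
  have ht1 : t < 1 / 4 := lt_of_lt_of_le htδ (min_le_left _ _)
  have ht2 : t < κ := lt_of_lt_of_le htδ ((min_le_right _ _).trans (min_le_left _ _))
  have ht3 : t < ε / (2 * (C2 + 1)) :=
    lt_of_lt_of_le htδ ((min_le_right _ _).trans (min_le_right _ _))
  have hv'Q : v - a • e ∈ (fun v => v - a • e) '' Q := ⟨v, hv, rfl⟩
  obtain ⟨c0, hc0, hfin⟩ := one_disc (ι := ι) (S := S) (φ := φ) (μ := μ) (Ω := Ω) (K1 := K1)
    (K2 := K2) (A := L + ε / 2) (C1 := C1) (C2 := C2) (a := a) (b := b) (t := t) (B := B)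
    (r1 := r1) (c1 := c1) (r' := r') (δ1 := δ1) (H := H) (κ := κ) (N := N) (x := x)
    (v' := v - a • e) (e := e)
    hK1s hK2s hK2a hΩ hK hS hS1 hφ hφc hφ0 (hK12 he) (hQ' _ hv'Q).1 hr1K hδ1L hfar ha hc1p hb
    (hQ' _ hv'Q).2.1 (min_le_left _ _) (min_le_right _ _) hr'p (fun v' hv' => (hQ' v' hv').2.2)
    hv'Q ht (by linarith) (by linarith) hx2.le ht2.le rfl hN hκN hH hC2n hC
  refine ⟨c0, hc0, ?_⟩
  intro c hc hcc
  have h1 := hfin c hc hcc
  rw [Xw_zero hbp ht, Yw_zero hbp ht] at h1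
  refine h1.trans ?_
  have : C2 * t ≤ ε / 2 := by
    have h1 : t * (2 * (C2 + 1)) < ε := by
      rwa [lt_div_iff₀ (by positivity)] at ht3
    nlinarith
  linarith

end Vale.Agent.P097.H593
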