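import Vale.Agent.P097.H593.T3d

/-! P097, row (T3): part g, the same with a rapidly decreasing weight (127's Gaussian) and growth
of `log ‖S‖` in `|x|` only. -/

namespace Vale.Agent.P097.H593

open MeasureTheory Metric Set Filter Topology Complex Real

variable {V E : Type*} [NormedAddCommGroup V] [NormedSpace ℝ V]
  [NormedAddCommGroup E] [NormedSpace ℂ E] [NormedSpace ℝ E]

/-- upper growth over compacts. -/
def Up (ι : V →L[ℝ] E) (S : E → ℂ) (K : Set V) : Prop :=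
  ∀ Y : Set V, IsCompact Y → Y ⊆ K → ∃ (C : ℝ) (n : ℕ), ∀ x, ∀ y ∈ Y,
    Real.log ‖S (pt ι x y)‖ ≤ C * (1 + ‖x‖) ^ n

/-- lower growth over compacts. -/
def Lo (ι : V →L[ℝ] E) (S : E → ℂ) (K : Set V) : Prop :=
  ∀ Y : Set V, IsCompact Y → Y ⊆ K → ∃ (C : ℝ) (n : ℕ), ∀ x, ∀ y ∈ Y,
    -Real.log ‖S (pt ι x y)‖ ≤ C * (1 + ‖x‖) ^ n

omit [NormedSpace ℝ V] in
theorem pow_shift {x u : V} {R : ℝ} (hx : ‖x‖ ≤ R) (n : ℕ) :
    (1 + ‖x + u‖) ^ n ≤ (1 + R) ^ n * (1 + ‖u‖) ^ n := by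
  have hR : 0 ≤ R := (norm_nonneg x).trans hx
  rw [← mul_pow]
  refine pow_le_pow_left₀ (by positivity) ?_ n
  have h1 := norm_add_le x u
  have h2 : 0 ≤ R * ‖u‖ := by positivity
  nlinarith

/-- uniform upper bound of the truncated logarithm. -/
theorem Up.bound {ι : V →L[ℝ] E} {S : E → ℂ} {K : Set V} (h : Up ι S K) {Y : Set V}
    (hY : IsCompact Y) (hYK : Y ⊆ K) (R : ℝ) :
    ∃ C : ℝ, 0 ≤ C ∧ ∃ n : ℕ, ∀ c, 0 < c → c ≤ 1 → ∀ x, ‖x‖ ≤ R → ∀ y ∈ Y, ∀ u,
      lg c (S (pt ι (x + u) y)) ≤ C * (1 + ‖u‖) ^ n := by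
  obtain ⟨C, n, hC⟩ := h Y hY hYK
  refine ⟨|C| * (1 + |R|) ^ n, by positivity, n, ?_⟩
  intro c hc hc1 x hx y hy u
  have hnn : 0 ≤ |C| * (1 + |R|) ^ n * (1 + ‖u‖) ^ n := by positivity
  by_cases h1 : ‖S (pt ι (x + u) y)‖ ≤ c
  · unfold lg
    rw [max_eq_right h1]
    exact (Real.log_nonpos hc.le hc1).trans hnn
  · rw [lg_eq_log (not_le.1 h1).le]
    calc Real.log ‖S (pt ι (x + u) y)‖ ≤ C * (1 + ‖x + u‖) ^ n := hC _ y hy
      _ ≤ |C| * (1 + ‖x + u‖) ^ n :=
          mul_le_mul_of_nonneg_right (le_abs_self C) (by positivity)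
      _ ≤ |C| * ((1 + |R|) ^ n * (1 + ‖u‖) ^ n) :=
          mul_le_mul_of_nonneg_left (pow_shift (hx.trans (le_abs_self R)) n) (abs_nonneg C)
      _ = |C| * (1 + |R|) ^ n * (1 + ‖u‖) ^ n := by ring

theorem Lo.bound {ι : V →L[ℝ] E} {S : E → ℂ} {K : Set V} (h : Lo ι S K) {Y : Set V}
    (hY : IsCompact Y) (hYK : Y ⊆ K) (R : ℝ) :
    ∃ C : ℝ, 0 ≤ C ∧ ∃ n : ℕ, ∀ x, ‖x‖ ≤ R → ∀ y ∈ Y, ∀ u,
      -Real.log ‖S (pt ι (x + u) y)‖ ≤ C * (1 + ‖u‖) ^ n := by
  obtain ⟨C, n, hC⟩ := h Y hY hYK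
  refine ⟨|C| * (1 + |R|) ^ n, by positivity, n, ?_⟩
  intro x hx y hy u
  calc -Real.log ‖S (pt ι (x + u) y)‖ ≤ C * (1 + ‖x + u‖) ^ n := hC _ y hy
    _ ≤ |C| * (1 + ‖x + u‖) ^ n :=
        mul_le_mul_of_nonneg_right (le_abs_self C) (by positivity)
    _ ≤ |C| * ((1 + |R|) ^ n * (1 + ‖u‖) ^ n) :=
        mul_le_mul_of_nonneg_left (pow_shift (hx.trans (le_abs_self R)) n) (abs_nonneg C)
    _ = |C| * (1 + |R|) ^ n * (1 + ‖u‖) ^ n := by ring

variable [MeasurableSpace V] [BorelSpace V]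

/-- admissible weights. -/
structure Wt (φ : V → ℝ) (μ : Measure V) : Prop where
  cont : Continuous φ
  nn : ∀ u, 0 ≤ φ u
  int : ∀ n : ℕ, Integrable (fun u => (1 + ‖u‖) ^ n * φ u) μ

omit [NormedSpace ℝ V] [BorelSpace V] in
theorem Wt.int0 {φ : V → ℝ} {μ : Measure V} (h : Wt φ μ) : Integrable φ μ := by
  have := h.int 0
  simpa using this

omit [NormedSpace ℝ V] [BorelSpace V] in
theorem Wt.int' {φ : V → ℝ} {μ : Measure V} (h : Wt φ μ) (A C : ℝ) (n : ℕ) :
    Integrable (fun u => (A + C * (1 + ‖u‖) ^ n) * φ u) μ := by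
  have h1 := (h.int0.const_mul A).add ((h.int n).const_mul C)
  refine h1.congr (Eventually.of_forall fun u => ?_)
  simp only [Pi.add_apply]
  ring

omit [MeasurableSpace V] [BorelSpace V] in
/-- continuity of the integrand. -/
theorem integrand_cont {ι : V →L[ℝ] E} {S : E → ℂ} {φ : V → ℝ} {K : Set V} {Ω : Set E} {c : ℝ}
    (hc : 0 < c) (hφ : Continuous φ) (hK : ∀ x, ∀ y ∈ K, pt ι x y ∈ Ω)
    (hS : DifferentiableOn ℂ S Ω) {x y : V} (hy : y ∈ K) :
    Continuous (fun u => lg c (S (pt ι (x + u) y)) * φ u) := by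
  have h1 : Continuous (fun u : V => pt ι (x + u) y) :=
    (pt_continuous ι).comp ((continuous_const.add continuous_id).prodMk continuous_const)
  have h2 : Continuous (fun u : V => S (pt ι (x + u) y)) :=
    hS.continuousOn.comp_continuous h1 (fun p => hK _ _ hy)
  exact ((lg_continuous hc).comp h2).mul hφ

theorem abs_lg_le {c A : ℝ} (hc : 0 < c) (hA : 0 ≤ A) {z : ℂ} (h : lg c z ≤ A) :
    |lg c z| ≤ |Real.log c| + A := by
  have h1 := le_lg_const hc z
  have h2 := neg_abs_le (Real.log c)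
  rw [abs_le]
  constructor
  · linarith
  · have := abs_nonneg (Real.log c); linarith

theorem integrand_int [SecondCountableTopology V] {ι : V →L[ℝ] E} {S : E → ℂ} {φ : V → ℝ}
    {μ : Measure V} {K : Set V} {Ω : Set E}
    {c : ℝ} (hc : 0 < c) (hc1 : c ≤ 1) (hφ : Wt φ μ) (hK : ∀ x, ∀ y ∈ K, pt ι x y ∈ Ω)
    (hS : DifferentiableOn ℂ S Ω) (hup : Up ι S K) {x y : V} (hy : y ∈ K) :
    Integrable (fun u => lg c (S (pt ι (x + u) y)) * φ u) μ := by
  obtain ⟨C, hC0, n, hC⟩ := hup.bound (Y := {y}) isCompact_singleton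
    (singleton_subset_iff.2 hy) ‖x‖
  refine Integrable.mono' (hφ.int' |Real.log c| C n)
    (integrand_cont hc hφ.cont hK hS hy).aestronglyMeasurable (Eventually.of_forall fun u => ?_)
  rw [norm_mul, Real.norm_eq_abs, Real.norm_eq_abs, abs_of_nonneg (hφ.nn u)]
  exact mul_le_mul_of_nonneg_right (abs_lg_le hc (by positivity)
    (hC c hc hc1 x le_rfl y rfl u)) (hφ.nn u)

omit [NormedSpace ℝ V] in
/-- Fubini on the circle for a dominated continuous kernel. -/
theorem circle_fubini [SecondCountableTopology V] {μ : Measure V} [SFinite μ] {F : ℝ → V → ℝ}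
    {g : V → ℝ} (hFc : Continuous F.uncurry) (hbd : ∀ θ u, ‖F θ u‖ ≤ g u)
    (hg : Integrable g μ) :
    Continuous (fun θ : ℝ => ∫ u, F θ u ∂μ) ∧
    Integrable (fun u => ∫ θ in (0)..(2 * π), F θ u) μ ∧
    ∫ u, (∫ θ in (0)..(2 * π), F θ u) ∂μ = ∫ θ in (0)..(2 * π), (∫ u, F θ u ∂μ) := by
  have hprod : Integrable F.uncurry ((volume.restrict (Ioc 0 (2 * π))).prod μ) := by
    refine Integrable.mono' (hg.comp_snd (volume.restrict (Ioc 0 (2 * π))))
      hFc.aestronglyMeasurable (Eventually.of_forall fun p => ?_)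
    exact hbd p.1 p.2
  refine ⟨?_, ?_, ?_⟩
  · refine continuous_of_dominated (bound := g) ?_ ?_ hg ?_
    · intro θ
      have : Continuous (fun u => F.uncurry (θ, u)) := hFc.comp (by fun_prop)
      exact this.aestronglyMeasurable
    · intro θ; exact Eventually.of_forall (hbd θ)
    · refine Eventually.of_forall fun u => ?_
      have : Continuous (fun θ => F.uncurry (θ, u)) := hFc.comp (by fun_prop)
      exact this
  · have h := hprod.integral_prod_right
    have h2 : (fun u => ∫ θ in (0)..(2 * π), F θ u)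
        = fun u => ∫ θ, F θ u ∂(volume.restrict (Ioc 0 (2 * π))) := by
      funext u
      rw [intervalIntegral.integral_of_le (by positivity)]
    rw [h2]
    exact h
  · rw [intervalIntegral.integral_of_le (by positivity)]
    rw [integral_integral_swap hprod]
    refine integral_congr_ae (Eventually.of_forall fun u => ?_)
    simp only
    rw [intervalIntegral.integral_of_le (by positivity)]

/-- the disc inequality for the averages, rapidly decreasing weight. -/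
theorem Jc_discG [SecondCountableTopology V] [CompleteSpace E] {ι : V →L[ℝ] E} {S : E → ℂ}
    {φ : V → ℝ} {μ : Measure V} [SFinite μ] {K : Set V} {Ω : Set E} {c : ℝ}
    (hc : 0 < c) (hc1 : c ≤ 1) (hφ : Wt φ μ)
    (hΩ : IsOpen Ω) (hK : ∀ x, ∀ y ∈ K, pt ι x y ∈ Ω) (hS : DifferentiableOn ℂ S Ω)
    (hup : Up ι S K)
    {X Y : ℂ → V} (hX : ContinuousOn X (closedBall 0 1)) (hY : ContinuousOn Y (closedBall 0 1))
    (hYK : ∀ w ∈ closedBall (0:ℂ) 1, Y w ∈ K)
    (han : AnalyticOnNhd ℂ (fun w => pt ι (X w) (Y w)) (closedBall 0 1)) :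
    CircleIntegrable (fun w => Jc ι S φ μ c (X w) (Y w)) 0 1 ∧
    Jc ι S φ μ c (X 0) (Y 0) ≤ circleAverage (fun w => Jc ι S φ μ c (X w) (Y w)) 0 1 := by
  set F : ℝ → V → ℝ := fun θ u =>
    lg c (S (pt ι (X (circleMap 0 1 θ) + u) (Y (circleMap 0 1 θ)))) * φ u with hF
  have hcm : ∀ θ : ℝ, circleMap 0 1 θ ∈ closedBall (0:ℂ) 1 := fun θ =>
    circleMap_mem_closedBall 0 zero_le_one θ
  have hXc : Continuous (fun θ : ℝ => X (circleMap 0 1 θ)) :=
    hX.comp_continuous (continuous_circleMap 0 1) hcm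
  have hYc : Continuous (fun θ : ℝ => Y (circleMap 0 1 θ)) :=
    hY.comp_continuous (continuous_circleMap 0 1) hcm
  have hFc : Continuous F.uncurry := by
    have h1 : Continuous (fun p : ℝ × V =>
        pt ι (X (circleMap 0 1 p.1) + p.2) (Y (circleMap 0 1 p.1))) := by
      exact (pt_continuous ι).comp
        (((hXc.comp continuous_fst).add continuous_snd).prodMk (hYc.comp continuous_fst))
    have h2 : Continuous (fun p : ℝ × V =>
        S (pt ι (X (circleMap 0 1 p.1) + p.2) (Y (circleMap 0 1 p.1)))) :=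
      hS.continuousOn.comp_continuous h1 (fun p => hK _ _ (hYK _ (hcm _)))
    exact ((lg_continuous hc).comp h2).mul (hφ.cont.comp continuous_snd)
  -- uniform bound
  have hYcp : IsCompact (Y '' closedBall 0 1) := (isCompact_closedBall _ _).image_of_continuousOn hY
  obtain ⟨R, hR⟩ := ((isCompact_closedBall (0:ℂ) 1).image_of_continuousOn hX).isBounded.exists_norm_le
  obtain ⟨C, hC0, n, hC⟩ := hup.bound hYcp (by rintro _ ⟨w, hw, rfl⟩; exact hYK w hw) R
  have hbd : ∀ θ u, ‖F θ u‖ ≤ (|Real.log c| + C * (1 + ‖u‖) ^ n) * φ u := by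
    intro θ u
    rw [hF]
    simp only
    rw [norm_mul, Real.norm_eq_abs, Real.norm_eq_abs, abs_of_nonneg (hφ.nn u)]
    exact mul_le_mul_of_nonneg_right (abs_lg_le hc (by positivity)
      (hC c hc hc1 _ (hR _ ⟨_, hcm θ, rfl⟩) _ ⟨_, hcm θ, rfl⟩ u)) (hφ.nn u)
  have hg := hφ.int' |Real.log c| C n
  obtain ⟨hJcont, hint2, hswap⟩ := circle_fubini hFc hbd hg
  constructor
  · have : IntervalIntegrable (fun θ : ℝ => ∫ u, F θ u ∂μ) volume 0 (2 * π) :=
      hJcont.intervalIntegrable _ _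
    exact this
  · have hpt : ∀ u, lg c (S (pt ι (X 0 + u) (Y 0))) * φ u
        ≤ (2 * π)⁻¹ * ∫ θ in (0)..(2 * π), F θ u := by
      intro u
      have hg : AnalyticOnNhd ℂ (fun w => S (pt ι (X w + u) (Y w))) (closedBall 0 1) := by
        intro w hw
        have h0 : (fun w => pt ι (X w + u) (Y w)) = fun w => pt ι (X w) (Y w) + ι u := by
          funext w; unfold pt; rw [map_add]; abel
        have h1 : AnalyticAt ℂ (fun w => pt ι (X w + u) (Y w)) w := by
          rw [h0]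
          exact (han w hw).add analyticAt_const
        have h2 : ∀ᶠ w' in 𝓝 w, pt ι (X w' + u) (Y w') ∈ Ω :=
          h1.continuousAt.eventually_mem (hΩ.mem_nhds (hK _ _ (hYK w hw)))
        rw [analyticAt_iff_eventually_differentiableAt]
        filter_upwards [h2, h1.eventually_analyticAt] with w' hw' ha'
        exact ((hS.differentiableAt (hΩ.mem_nhds hw')).comp w' ha'.differentiableAt)
      have h3 := lg_submean one_pos hc hg
      rw [circleAverage_def] at h3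
      have h4 : ∫ θ in (0)..(2 * π), F θ u
          = (∫ θ in (0)..(2 * π), lg c (S (pt ι (X (circleMap 0 1 θ) + u)
              (Y (circleMap 0 1 θ))))) * φ u := by
        rw [← intervalIntegral.integral_mul_const]
      rw [h4, ← mul_assoc]
      exact mul_le_mul_of_nonneg_right h3 (hφ.nn u)
    have hint1 : Integrable (fun u => lg c (S (pt ι (X 0 + u) (Y 0))) * φ u) μ :=
      integrand_int hc hc1 hφ hK hS hup (hYK _ (by simp))
    calc Jc ι S φ μ c (X 0) (Y 0)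
        = ∫ u, lg c (S (pt ι (X 0 + u) (Y 0))) * φ u ∂μ := rfl
      _ ≤ ∫ u, ((2 * π)⁻¹ * ∫ θ in (0)..(2 * π), F θ u) ∂μ := by
          refine integral_mono hint1 (hint2.const_mul _) ?_
          exact hpt
      _ = (2 * π)⁻¹ * ∫ u, (∫ θ in (0)..(2 * π), F θ u) ∂μ := by
          rw [integral_const_mul]
      _ = (2 * π)⁻¹ * ∫ θ in (0)..(2 * π), (∫ u, F θ u ∂μ) := by
          rw [hswap]
      _ = circleAverage (fun w => Jc ι S φ μ c (X w) (Y w)) 0 1 := by
          rw [circleAverage_def, smul_eq_mul]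
          rfl

end Vale.Agent.P097.H593
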