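import Vale.Agent.P097.H593.T3g

/-! P097, row (T3): part h, main statement with a rapidly decreasing weight. -/

namespace Vale.Agent.P097.H593

open MeasureTheory Metric Set Filter Topology Complex Real

variable {V E : Type*} [NormedAddCommGroup V] [NormedSpace ℝ V]
  [NormedAddCommGroup E] [NormedSpace ℂ E] [NormedSpace ℝ E]
  [MeasurableSpace V] [BorelSpace V]

/-- uniform upper bound of the averages over compacts. -/
theorem Jc_le_of_compact [SecondCountableTopology V] {ι : V →L[ℝ] E} {S : E → ℂ} {φ : V → ℝ}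
    {μ : Measure V} {K : Set V} {Ω : Set E} (hφ : Wt φ μ) (hK : ∀ x, ∀ y ∈ K, pt ι x y ∈ Ω)
    (hS : DifferentiableOn ℂ S Ω) (hup : Up ι S K) {Y : Set V} (hY : IsCompact Y) (hYK : Y ⊆ K)
    (R : ℝ) : ∃ C1 : ℝ, ∀ c, 0 < c → c ≤ 1 → ∀ x, ‖x‖ ≤ R → ∀ y ∈ Y,
      Jc ι S φ μ c x y ≤ C1 := by
  obtain ⟨C, hC0, n, hC⟩ := hup.bound hY hYK R
  refine ⟨∫ u, (0 + C * (1 + ‖u‖) ^ n) * φ u ∂μ, ?_⟩
  intro c hc hc1 x hx y hy
  refine integral_mono (integrand_int hc hc1 hφ hK hS hup (hYK hy)) (hφ.int' 0 C n) ?_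
  intro u
  refine mul_le_mul_of_nonneg_right ?_ (hφ.nn u)
  rw [zero_add]
  exact hC c hc hc1 x hx y hy u

/-- integrability of `log ‖S‖ φ` over `K1`. -/
theorem J0_int [SecondCountableTopology V] {ι : V →L[ℝ] E} {S : E → ℂ} {φ : V → ℝ}
    {μ : Measure V} {K1 K2 : Set V} {Ω : Set E} (hφ : Wt φ μ) (hK12 : K1 ⊆ K2)
    (hK : ∀ x, ∀ y ∈ K2, pt ι x y ∈ Ω)
    (hS : DifferentiableOn ℂ S Ω) (hS1 : ∀ x, ∀ y ∈ K1, S (pt ι x y) ≠ 0)
    (hup : Up ι S K2) (hlo : Lo ι S K1) {x y : V} (hy : y ∈ K1) :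
    Integrable (fun u => Real.log ‖S (pt ι (x + u) y)‖ * φ u) μ := by
  obtain ⟨C, hC0, n, hC⟩ := hup.bound (Y := {y}) isCompact_singleton
    (singleton_subset_iff.2 (hK12 hy)) ‖x‖
  obtain ⟨C', hC0', n', hC'⟩ := hlo.bound (Y := {y}) isCompact_singleton
    (singleton_subset_iff.2 hy) ‖x‖
  have hg := (hφ.int' 0 C n).add (hφ.int' 0 C' n')
  refine Integrable.mono' hg ?_ (Eventually.of_forall fun u => ?_)
  · have h1 : Continuous (fun u : V => pt ι (x + u) y) :=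
      (pt_continuous ι).comp ((continuous_const.add continuous_id).prodMk continuous_const)
    have h2 : Continuous (fun u : V => S (pt ι (x + u) y)) :=
      hS.continuousOn.comp_continuous h1 (fun p => hK _ _ (hK12 hy))
    exact ((h2.norm.log (fun u => norm_ne_zero_iff.2 (hS1 _ _ hy))).mul hφ.cont).aestronglyMeasurable
  · rw [norm_mul, Real.norm_eq_abs, Real.norm_eq_abs, abs_of_nonneg (hφ.nn u), Pi.add_apply,
      ← add_mul]
    refine mul_le_mul_of_nonneg_right ?_ (hφ.nn u)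
    have h1 := hC 1 one_pos le_rfl x le_rfl y rfl u
    have h2 := hC' x le_rfl y rfl u
    have h3 := log_le_lg (c := 1) (hS1 (x + u) y hy)
    have h4 : 0 ≤ C * (1 + ‖u‖) ^ n := by positivity
    have h5 : 0 ≤ C' * (1 + ‖u‖) ^ n' := by positivity
    rw [abs_le]
    constructor <;> linarith

/-- the truncation is uniformly harmless over compacts of `K1`. -/
theorem trunc_unif [SecondCountableTopology V] {ι : V →L[ℝ] E} {S : E → ℂ} {φ : V → ℝ}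
    {μ : Measure V} {K1 K2 : Set V} {Ω : Set E} (hφ : Wt φ μ) (hK12 : K1 ⊆ K2)
    (hK : ∀ x, ∀ y ∈ K2, pt ι x y ∈ Ω)
    (hS : DifferentiableOn ℂ S Ω) (hS1 : ∀ x, ∀ y ∈ K1, S (pt ι x y) ≠ 0)
    (hup : Up ι S K2) (hlo : Lo ι S K1) {Y : Set V} (hY : IsCompact Y) (hYK : Y ⊆ K1) (R : ℝ)
    {ε : ℝ} (hε : 0 < ε) :
    ∃ c0 > 0, c0 ≤ 1 ∧ ∀ c, 0 < c → c ≤ c0 → ∀ x, ‖x‖ ≤ R → ∀ y ∈ Y,
      J0 ι S φ μ x y ≤ Jc ι S φ μ c x y ∧ Jc ι S φ μ c x y ≤ J0 ι S φ μ x y + ε := by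
  obtain ⟨C, hC0, n, hC⟩ := hlo.bound hY hYK R
  -- the defect
  have hint : ∀ c : ℝ, 0 < c → c ≤ 1 →
      Integrable (fun u => max 0 (Real.log c + C * (1 + ‖u‖) ^ n) * φ u) μ := by
    intro c hc hc1
    refine Integrable.mono' (hφ.int' 0 C n) ?_ (Eventually.of_forall fun u => ?_)
    · refine (Continuous.mul (continuous_const.max ?_) hφ.cont).aestronglyMeasurable
      fun_prop
    · rw [norm_mul, Real.norm_eq_abs, Real.norm_eq_abs, abs_of_nonneg (hφ.nn u),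
        abs_of_nonneg (le_max_left _ _)]
      refine mul_le_mul_of_nonneg_right (max_le ?_ ?_) (hφ.nn u)
      · positivity
      · have := Real.log_nonpos hc.le hc1
        linarith
  have htend : Tendsto (fun N : ℕ => ∫ u, max 0 (Real.log (Real.exp (-(N:ℝ)))
      + C * (1 + ‖u‖) ^ n) * φ u ∂μ) atTop (𝓝 0) := by
    have key := tendsto_integral_of_dominated_convergence (μ := μ) (F := fun N : ℕ => fun u : V =>
      max (0:ℝ) (Real.log (Real.exp (-(N:ℝ))) + C * (1 + ‖u‖) ^ n) * φ u) (f := fun _ => (0:ℝ))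
      (fun u => (0 + C * (1 + ‖u‖) ^ n) * φ u)
      (fun N => (hint _ (Real.exp_pos _) (by
        rw [Real.exp_le_one_iff]; simp)).aestronglyMeasurable) (hφ.int' 0 C n) ?_ ?_
    · simpa using key
    · intro N
      refine Eventually.of_forall fun u => ?_
      rw [norm_mul, Real.norm_eq_abs, Real.norm_eq_abs, abs_of_nonneg (hφ.nn u),
        abs_of_nonneg (le_max_left _ _), Real.log_exp]
      refine mul_le_mul_of_nonneg_right (max_le ?_ ?_) (hφ.nn u)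
      · positivity
      · have : (0:ℝ) ≤ N := Nat.cast_nonneg N
        linarith
    · refine Eventually.of_forall fun u => ?_
      refine tendsto_const_nhds.congr' ?_
      filter_upwards [eventually_ge_atTop (Nat.ceil (C * (1 + ‖u‖) ^ n))] with N hN
      have h1 : C * (1 + ‖u‖) ^ n ≤ N := Nat.ceil_le.1 hN
      rw [Real.log_exp, max_eq_left (by linarith), zero_mul]
  obtain ⟨N, hN⟩ := (htend.eventually_lt_const hε).exists
  refine ⟨Real.exp (-(N:ℝ)), Real.exp_pos _, by rw [Real.exp_le_one_iff]; simp, ?_⟩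
  intro c hc hcN x hx y hy
  have hc1 : c ≤ 1 := hcN.trans (by rw [Real.exp_le_one_iff]; simp)
  have hi0 := J0_int (ι := ι) (S := S) (Ω := Ω) (x := x) hφ hK12 hK hS hS1 hup hlo (hYK hy)
  have hi1 := integrand_int (ι := ι) (S := S) (Ω := Ω) (x := x) hc hc1 hφ hK hS hup
    (hK12 (hYK hy))
  constructor
  · refine integral_mono hi0 hi1 ?_
    intro u
    exact mul_le_mul_of_nonneg_right (log_le_lg (hS1 _ _ (hYK hy))) (hφ.nn u)
  · have h1 : Jc ι S φ μ c x y - J0 ι S φ μ x y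
        = ∫ u, (lg c (S (pt ι (x + u) y)) * φ u
          - Real.log ‖S (pt ι (x + u) y)‖ * φ u) ∂μ := (integral_sub hi1 hi0).symm
    have h2 : ∫ u, (lg c (S (pt ι (x + u) y)) * φ u
          - Real.log ‖S (pt ι (x + u) y)‖ * φ u) ∂μ
        ≤ ∫ u, max 0 (Real.log (Real.exp (-(N:ℝ))) + C * (1 + ‖u‖) ^ n) * φ u ∂μ := by
      refine integral_mono (hi1.sub hi0) (hint _ (Real.exp_pos _) (by
        rw [Real.exp_le_one_iff]; simp)) ?_
      intro u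
      simp only
      rw [← sub_mul]
      refine mul_le_mul_of_nonneg_right ?_ (hφ.nn u)
      by_cases h : c ≤ ‖S (pt ι (x + u) y)‖
      · rw [lg_eq_log h, sub_self]
        exact le_max_left _ _
      · refine le_trans ?_ (le_max_right _ _)
        have h3 : lg c (S (pt ι (x + u) y)) = Real.log c := by
          unfold lg; rw [max_eq_right (not_le.1 h).le]
        rw [h3]
        have h4 := hC x hx y hy u
        have h5 := Real.log_le_log hc hcN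
        linarith
    linarith

/-- the estimate for one disc, rapidly decreasing weight. -/
theorem one_discG [ProperSpace V] [CompleteSpace E] [IsScalarTower ℝ ℂ E] {ι : V →L[ℝ] E}
    {S : E → ℂ} {φ : V → ℝ}
    {μ : Measure V} [SFinite μ] {K1 K2 : Set V} {Ω : Set E}
    (hK1s : ∀ y ∈ K1, ∀ r : ℝ, 0 < r → r • y ∈ K1)
    (hK2s : ∀ y ∈ K2, ∀ r : ℝ, 0 < r → r • y ∈ K2)
    (hK2a : ∀ y ∈ K2, ∀ y' ∈ K2, y + y' ∈ K2) (hK12 : K1 ⊆ K2)
    (hΩ : IsOpen Ω) (hK : ∀ x, ∀ y ∈ K2, pt ι x y ∈ Ω) (hS : DifferentiableOn ℂ S Ω)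
    (hS1 : ∀ x, ∀ y ∈ K1, S (pt ι x y) ≠ 0)
    (hφ : Wt φ μ) (hup : Up ι S K2) (hlo : Lo ι S K1)
    {A ε' C1 C2 a b t B m r1 c1 r' δ1 H κ N : ℝ} {x v' e : V} {Q' : Set V} (hε' : 0 < ε')
    (heK : e ∈ K2) (hv'K : v' ∈ K2) (hr1K : closedBall e r1 ⊆ K1)
    (hL : ∀ x, ‖x‖ < δ1 →
      ∀ r : ℝ, 0 < r → r < δ1 → ∀ y ∈ closedBall e r1, J0 ι S φ μ x (r • y) ≤ A)
    (hfar : ∀ c, 0 < c → c ≤ 1 → ∀ x' : V, ‖x'‖ ≤ 1 + B + H * ‖e‖ →
      ∀ η : ℝ, r' ^ 2 ≤ η → η ≤ 1 → ∀ v' ∈ Q', ∀ h : ℝ, 0 ≤ h → h ≤ H →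
      Jc ι S φ μ c x' (η • v' + h • e) ≤ C1)
    (ha : 0 < a) (hc1p : 0 < c1) (hb : b = c1 * a / 4) (hBn : ‖v'‖ ≤ B) (hr'b : r' ≤ b)
    (hr'κ : r' ≤ κ) (hr'p : 0 < r')
    (hE1 : ∀ v' ∈ Q', ∀ s : ℝ, 0 ≤ s → s ≤ c1 → e + s • v' ∈ closedBall e r1)
    (hv'Q : v' ∈ Q') (ht : 0 < t) (ht' : t < 1 / 2) (hx1 : ‖x‖ ≤ 1) (hx2 : ‖x‖ ≤ κ) (ht2 : t ≤ κ)
    (hm : m = a * t ^ 2 / (b + t)) (hN : N = B + a * ‖e‖ + a + ‖e‖ + 1)
    (hκN : 2 * κ * N < δ1) (hH : H = a + a) (hC2n : 0 ≤ C2)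
    (hC : C1 ≤ A + C2 * r' ^ 2) :
    ∃ c0 > 0, ∀ c, 0 < c → c ≤ c0 →
      Jc ι S φ μ c (Xw a b t x v' e 0) (Yw a b t v' e 0) ≤ (A + ε') + C2 * t := by
  have hbp : 0 < b := by rw [hb]; positivity
  have hB0 : 0 ≤ B := (norm_nonneg _).trans hBn
  have hκp : 0 < κ := lt_of_lt_of_le ht ht2
  have hmp : 0 < m := by rw [hm]; positivity
  have hmt : m ≤ a * t := by
    rw [hm, div_le_iff₀ (by positivity)]
    have h1 : 0 ≤ a * t * b := by positivity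
    nlinarith
  have hma : m ≤ a := by
    refine hmt.trans ?_
    calc a * t ≤ a * 1 := mul_le_mul_of_nonneg_left (by linarith) ha.le
      _ = a := mul_one a
  have hzim : ∀ w : ℂ, ‖w‖ ≤ 1 → 0 ≤ (am t w).im := fun w hw => am_im_nonneg ht ht' hw
  have hhre : ∀ w : ℂ, ‖w‖ ≤ 1 → m ≤ (hr a b t (am t w)).re := fun w hw => by
    rw [hm]; exact hr_re_ge ha.le hbp (hzim w hw)
  have hYK : ∀ w ∈ closedBall (0:ℂ) 1, Yw a b t v' e w ∈ K2 := by
    intro w hw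
    have hw' : ‖w‖ ≤ 1 := by simpa using hw
    have h1 : 0 < (hr a b t (am t w)).re := lt_of_lt_of_le hmp (hhre w hw')
    exact cone_mem hK2s hK2a hv'K heK (hzim w hw') h1.le (Or.inr h1)
  have hnearY : ∀ w : ℂ, ‖w‖ = 1 → ‖am t w‖ ≤ r' →
      ∃ y ∈ closedBall e r1, Yw a b t v' e w = (hr a b t (am t w)).re • y :=
    fun w hw hwr => near_Y ha hc1p hb ht ht' hE1 hv'Q hw (hwr.trans hr'b)
  -- the compact of `K1` which contains the near part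
  have hY1c : IsCompact ((fun p : ℝ × V => p.1 • p.2) '' (Icc m H ×ˢ closedBall e r1)) :=
    (isCompact_Icc.prod (isCompact_closedBall e r1)).image (by fun_prop)
  have hY1K : ((fun p : ℝ × V => p.1 • p.2) '' (Icc m H ×ˢ closedBall e r1)) ⊆ K1 := by
    rintro _ ⟨⟨h, y⟩, ⟨hh, hy⟩, rfl⟩
    exact hK1s _ (hr1K hy) _ (lt_of_lt_of_le hmp hh.1)
  obtain ⟨c0, hc0, hc01, htr⟩ := trunc_unif (ι := ι) (S := S) (Ω := Ω) hφ hK12 hK hS hS1 hup hlo
    hY1c hY1K (1 + B + H * ‖e‖) hε'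
  refine ⟨c0, hc0, ?_⟩
  intro c hc hcc0
  have hcc1 : c ≤ 1 := hcc0.trans hc01
  obtain ⟨hci, hineq⟩ := Jc_discG (ι := ι) (S := S) (φ := φ) (μ := μ) (K := K2) (Ω := Ω) hc hcc1 hφ
    hΩ hK hS hup (Xw_cont hbp ht ht' x v' e) (Yw_cont hbp ht ht' v' e) hYK
    (pt_analytic ι hbp ht ht' x v' e)
  refine hineq.trans ?_
  have hbd : ∀ w ∈ sphere (0:ℂ) |1|, Jc ι S φ μ c (Xw a b t x v' e w) (Yw a b t v' e w)
      ≤ (A + ε') + C2 * (am t w).im := by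
    intro w hw
    have hw1 : ‖w‖ = 1 := by simpa using hw
    have hz1 := am_norm_le ht ht' hw1.le
    have hz0 := hzim w hw1.le
    obtain ⟨hXn, hhre'⟩ := Xw_norm (x := x) (v' := v') (e := e) ha.le hbp ht ht' hm hBn hw1.le
    have haz : a * ‖am t w‖ ≤ a := by
      calc a * ‖am t w‖ ≤ a * 1 := mul_le_mul_of_nonneg_left hz1 ha.le
        _ = a := mul_one a
    have hmH : m + a * ‖am t w‖ ≤ H := by rw [hH]; exact add_le_add hma haz
    have hXf : ‖Xw a b t x v' e w‖ ≤ 1 + B + H * ‖e‖ := by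
      refine hXn.trans (add_le_add (add_le_add hx1 ?_)
        (mul_le_mul_of_nonneg_right hmH (norm_nonneg e)))
      calc ‖am t w‖ * B ≤ 1 * B := mul_le_mul_of_nonneg_right hz1 hB0
        _ = B := one_mul B
    by_cases hnear : ‖am t w‖ ≤ r'
    · obtain ⟨y, hy, hYy⟩ := hnearY w hw1 hnear
      have h1 : 0 < (hr a b t (am t w)).re := lt_of_lt_of_le hmp (hhre w hw1.le)
      have hmem : Yw a b t v' e w ∈
          ((fun p : ℝ × V => p.1 • p.2) '' (Icc m H ×ˢ closedBall e r1)) :=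
        ⟨((hr a b t (am t w)).re, y), ⟨⟨hhre w hw1.le, hhre'.trans hmH⟩, hy⟩, hYy.symm⟩
      refine (htr c hc hcc0 _ hXf _ hmem).2.trans ?_
      rw [hYy]
      have hzκ : ‖am t w‖ ≤ κ := hnear.trans hr'κ
      have hmκ : m ≤ a * κ := hmt.trans (mul_le_mul_of_nonneg_left ht2 ha.le)
      have har := arith1 hκp.le hB0 ha.le (norm_nonneg e) hN
      have hXδ : ‖Xw a b t x v' e w‖ < δ1 :=
        lt_of_le_of_lt (hXn.trans (add_le_add (add_le_add hx2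
          (mul_le_mul_of_nonneg_right hzκ hB0)) (mul_le_mul_of_nonneg_right
          (add_le_add hmκ (mul_le_mul_of_nonneg_left hzκ ha.le)) (norm_nonneg e))))
          (lt_of_le_of_lt har.1 hκN)
      have hrδ : (hr a b t (am t w)).re < δ1 :=
        lt_of_le_of_lt (hhre'.trans
          (add_le_add hmκ (mul_le_mul_of_nonneg_left hzκ ha.le)))
          (lt_of_le_of_lt har.2 hκN)
      have h4 := hL _ hXδ _ h1 hrδ y hy
      have h5 : 0 ≤ C2 * (am t w).im := mul_nonneg hC2n hz0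
      exact (add_le_add h4 le_rfl).trans (le_add_of_nonneg_right h5)
    · have hnear' : r' < ‖am t w‖ := not_le.1 hnear
      have hη : r' ^ 2 ≤ (am t w).im := by
        rw [am_im_eq ht ht' hw1]
        exact pow_le_pow_left₀ hr'p.le hnear'.le 2
      have hη1 : (am t w).im ≤ 1 := (le_abs_self _).trans ((abs_im_le_norm _).trans hz1)
      have h1 : Jc ι S φ μ c (Xw a b t x v' e w) (Yw a b t v' e w) ≤ C1 :=
        hfar c hc hcc1 (Xw a b t x v' e w) hXf (am t w).im hη hη1 v' hv'Q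
          (hr a b t (am t w)).re (hmp.le.trans (hhre w hw1.le)) (hhre'.trans hmH)
      exact h1.trans (hC.trans (add_le_add (le_add_of_nonneg_right hε'.le)
        (mul_le_mul_of_nonneg_left hη hC2n)))
  obtain ⟨hlin, hav⟩ := avg_affine ht ht' (A + ε') C2
  exact (circleAverage_mono hci hlin hbd).trans hav.le

/-- **(T3), rapidly decreasing weight**. -/
theorem limsup_coneG [ProperSpace V] [CompleteSpace E] [IsScalarTower ℝ ℂ E] {ι : V →L[ℝ] E}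
    {S : E → ℂ} {φ : V → ℝ} {μ : Measure V} [SFinite μ] {K1 K2 : Set V} {Ω : Set E}
    (hK1o : IsOpen K1) (hK1s : ∀ y ∈ K1, ∀ r : ℝ, 0 < r → r • y ∈ K1) (hK1n : K1.Nonempty)
    (hK2o : IsOpen K2) (hK2s : ∀ y ∈ K2, ∀ r : ℝ, 0 < r → r • y ∈ K2)
    (hK2a : ∀ y ∈ K2, ∀ y' ∈ K2, y + y' ∈ K2) (hK12 : K1 ⊆ K2)
    (hΩ : IsOpen Ω) (hK : ∀ x, ∀ y ∈ K2, pt ι x y ∈ Ω) (hS : DifferentiableOn ℂ S Ω)
    (hS1 : ∀ x, ∀ y ∈ K1, S (pt ι x y) ≠ 0)
    (hφ : Wt φ μ) (hup : Up ι S K2) (hlo : Lo ι S K1)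
    {L : ℝ}
    (hL : ∀ Q : Set V, IsCompact Q → Q ⊆ K1 → ∀ ε > 0, ∃ δ > 0, ∀ x, ‖x‖ < δ →
      ∀ r : ℝ, 0 < r → r < δ → ∀ y ∈ Q, J0 ι S φ μ x (r • y) ≤ L + ε)
    {Q : Set V} (hQ : IsCompact Q) (hQK : Q ⊆ K2) {ε : ℝ} (hε : 0 < ε) :
    ∃ δ > 0, ∀ x, ‖x‖ < δ → ∀ t : ℝ, 0 < t → t < δ → ∀ v ∈ Q,
      ∃ c0 > 0, ∀ c, 0 < c → c ≤ c0 → Jc ι S φ μ c x (t • v) ≤ L + ε := by
  obtain ⟨e, he⟩ := hK1n
  obtain ⟨a, ha, B, hB0, r1, hr1, c1, hc1p, hr1K, hQ'⟩ := geom hK1o hK2o hQ hQK he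
  have hQ'c : IsCompact ((fun v => v - a • e) '' Q) := hQ.image (by fun_prop)
  set b : ℝ := c1 * a / 4 with hb
  have hbp : 0 < b := by positivity
  obtain ⟨δ1, hδ1, hδ1L⟩ := hL (closedBall e r1) (isCompact_closedBall e r1) hr1K (ε / 4)
    (by positivity)
  set N : ℝ := B + a * ‖e‖ + a + ‖e‖ + 1 with hN
  have hNp : 0 < N := by positivity
  set κ : ℝ := δ1 / (4 * N) with hκ
  have hκp : 0 < κ := by positivity
  have hκN : 2 * κ * N < δ1 := by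
    have : 2 * κ * N = δ1 / 2 := by rw [hκ]; field_simp; ring
    linarith
  set r' : ℝ := min b κ with hr'
  have hr'p : 0 < r' := by positivity
  set H : ℝ := a + a with hH
  -- far compact
  have hYfc : IsCompact ((fun p : ℝ × V × ℝ => p.1 • p.2.1 + p.2.2 • e) ''
      (Icc (r' ^ 2) 1 ×ˢ ((fun v => v - a • e) '' Q) ×ˢ Icc 0 H)) :=
    (isCompact_Icc.prod (hQ'c.prod isCompact_Icc)).image (by fun_prop)
  have hYfK : ((fun p : ℝ × V × ℝ => p.1 • p.2.1 + p.2.2 • e) ''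
      (Icc (r' ^ 2) 1 ×ˢ ((fun v => v - a • e) '' Q) ×ˢ Icc 0 H)) ⊆ K2 := by
    rintro _ ⟨⟨η, v', h⟩, ⟨hη, hv', hh⟩, rfl⟩
    have hη0 : 0 < η := lt_of_lt_of_le (by positivity) hη.1
    exact cone_mem hK2s hK2a (hQ' v' hv').1 (hK12 he) hη0.le hh.1 (Or.inl hη0)
  obtain ⟨C1, hfar'⟩ := Jc_le_of_compact (ι := ι) (S := S) (φ := φ) (μ := μ) (Ω := Ω) hφ hK hS hup
    hYfc hYfK (1 + B + H * ‖e‖)
  have hfar : ∀ c, 0 < c → c ≤ 1 → ∀ x' : V, ‖x'‖ ≤ 1 + B + H * ‖e‖ →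
      ∀ η : ℝ, r' ^ 2 ≤ η → η ≤ 1 → ∀ v' ∈ ((fun v => v - a • e) '' Q), ∀ h : ℝ, 0 ≤ h → h ≤ H →
      Jc ι S φ μ c x' (η • v' + h • e) ≤ C1 := by
    intro c hc hc1 x' hx' η hη1 hη2 v' hv' h hh1 hh2
    exact hfar' c hc hc1 x' hx' _ ⟨(η, v', h), ⟨⟨hη1, hη2⟩, hv', ⟨hh1, hh2⟩⟩, rfl⟩
  set C2 : ℝ := (|C1| + |L|) / r' ^ 2 with hC2
  have hC2n : 0 ≤ C2 := by positivity
  have hC : C1 ≤ (L + ε / 4) + C2 * r' ^ 2 := by
    have h1 : C2 * r' ^ 2 = |C1| + |L| := by rw [hC2]; field_simp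
    rw [h1]
    have h4 := le_abs_self C1
    have h5 := neg_abs_le L
    linarith
  refine ⟨min (1 / 4) (min κ (ε / (2 * (C2 + 1)))), by positivity, ?_⟩
  intro x hx t ht htδ v hv
  have hx1 : ‖x‖ < 1 / 4 := lt_of_lt_of_le hx (min_le_left _ _)
  have hx2 : ‖x‖ < κ := lt_of_lt_of_le hx ((min_le_right _ _).trans (min_le_left _ _))
  have ht1 : t < 1 / 4 := lt_of_lt_of_le htδ (min_le_left _ _)
  have ht2 : t < κ := lt_of_lt_of_le htδ ((min_le_right _ _).trans (min_le_left _ _))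
  have ht3 : t < ε / (2 * (C2 + 1)) :=
    lt_of_lt_of_le htδ ((min_le_right _ _).trans (min_le_right _ _))
  have hv'Q : v - a • e ∈ (fun v => v - a • e) '' Q := ⟨v, hv, rfl⟩
  obtain ⟨c0, hc0, hfin⟩ := one_discG (ι := ι) (S := S) (φ := φ) (μ := μ) (Ω := Ω) (K1 := K1)
    (K2 := K2) (A := L + ε / 4) (ε' := ε / 4) (C1 := C1) (C2 := C2) (a := a) (b := b) (t := t)
    (B := B) (r1 := r1) (c1 := c1) (r' := r') (δ1 := δ1) (H := H) (κ := κ) (N := N) (x := x)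
    (v' := v - a • e) (e := e)
    hK1s hK2s hK2a hK12 hΩ hK hS hS1 hφ hup hlo (by positivity) (hK12 he) (hQ' _ hv'Q).1 hr1K
    hδ1L hfar ha hc1p hb
    (hQ' _ hv'Q).2.1 (min_le_left _ _) (min_le_right _ _) hr'p (fun v' hv' => (hQ' v' hv').2.2)
    hv'Q ht (by linarith) (by linarith) hx2.le ht2.le rfl hN hκN hH hC2n hC
  refine ⟨c0, hc0, ?_⟩
  intro c hc hcc
  have h1 := hfin c hc hcc
  rw [Xw_zero hbp ht, Yw_zero hbp ht] at h1
  refine h1.trans ?_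
  have : C2 * t ≤ ε / 2 := by
    have h1 : t * (2 * (C2 + 1)) < ε := by
      rwa [lt_div_iff₀ (by positivity)] at ht3
    nlinarith
  linarith

end Vale.Agent.P097.H593
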